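/-!
# P045: computational definitions of the kernel checker for extension trees

No imports, so that the generated certificate modules load quickly.

A vertex of part `i` with label `x` is the bit position `16 * i + x`.  An edge is the mask of its
`r` positions; `wd = 16 * r` bits per edge.  A state is `K` (packed edges), `k` (number of edges),
`U` (mask of the labels in use), `Fm` (mask of the next fresh label of every part).
The pending edge is described by `A` (mask of the positions it may still use) and `Sg` (mask of the
parts that are already decided).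
-/

namespace Vale.Agent.P045

/-- constants of a problem: number of parts, `two = true` for matching number two -/
structure Par where
  r : Nat
  two : Bool
  /-- size of the covers -/
  c : Nat
  /-- `16 * r` -/
  wd : Nat
  /-- `2 ^ wd - 1` -/
  all : Nat
  /-- bit 15 of every part -/
  top : Nat

/-- edge number `a` of the packed state -/
noncomputable def edgeAt (P : Par) (K a : Nat) : Nat :=
  Nat.land (Nat.shiftRight K (Nat.mul P.wd a)) P.all

/-- mask of `n` positions of 7 bits read from `s` -/
noncomputable def posMask (n : Nat) : Nat → Nat :=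
  Nat.rec (fun _ => 0)
    (fun _ ih s => Nat.lor (Nat.shiftLeft 1 (Nat.land s 127)) (ih (Nat.shiftRight s 7))) n

/-- the mask that the pending edge has to meet: edge `a` (and edge `b`) -/
noncomputable def splitMask (P : Par) (K a b : Nat) : Nat :=
  Bool.rec (edgeAt P K a) (Nat.lor (edgeAt P K a) (edgeAt P K b)) P.two

/-- `a` is an edge (and `b` is an edge disjoint from it) -/
noncomputable def splitOK (P : Par) (K k a b : Nat) : Bool :=
  Bool.rec (Nat.ble (Nat.succ a) k)
    (Bool.and (Bool.and (Nat.ble (Nat.succ a) k) (Nat.ble (Nat.succ b) k))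
      (Nat.beq (Nat.land (edgeAt P K a) (edgeAt P K b)) 0))
    P.two

/-- mask of the part that contains position `p` -/
noncomputable def partMask (p : Nat) : Nat := Nat.shiftLeft 65535 (Nat.land p 112)

/-- run through the positions of `m` (highest first); `ch A Sg s` treats one option -/
noncomputable def opts (ch : Nat → Nat → Nat → Nat) (Sg : Nat) : Nat → Nat → Nat → Nat → Nat :=
  Nat.rec (fun m _ s => Bool.rec 0 s (Nat.beq m 0))
    (fun _ lp m A s =>
      Bool.rec
        (lp (Nat.xor m (Nat.shiftLeft 1 (Nat.log2 m))) (Nat.xor A (Nat.shiftLeft 1 (Nat.log2 m)))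
          (ch (Nat.lor (Nat.xor (Nat.lor A (partMask (Nat.log2 m))) (partMask (Nat.log2 m)))
              (Nat.shiftLeft 1 (Nat.log2 m)))
            (Nat.lor Sg (partMask (Nat.log2 m))) s))
        s (Nat.beq m 0))

/-- number of labels of part `i` in the packed counts `n` -/
noncomputable def cnt (n i : Nat) : Nat := Nat.land (Nat.shiftRight n (Nat.mul 4 i)) 15

/-- mask of the labels in use -/
noncomputable def mkU (n : Nat) : Nat → Nat :=
  Nat.rec 0 (fun i ih =>
    Nat.lor ih (Nat.shiftLeft (Nat.sub (Nat.shiftLeft 1 (cnt n i)) 1) (Nat.mul 16 i)))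

/-- mask of the fresh labels -/
noncomputable def mkF (n : Nat) : Nat → Nat :=
  Nat.rec 0 (fun i ih => Nat.lor ih (Nat.shiftLeft 1 (Nat.add (Nat.mul 16 i) (cnt n i))))

/-! ### references to earlier lemmas

An entry of the data base: 6 bits `kL`, 32 bits packed counts `nL`, then the packed edges.
The token `t`: `3` bits per part for the permutation of the parts (24 bits), then for every part 16
labels of 4 bits, then 6 bits per edge of the lemma (number of its image in the current state). -/

noncomputable def entK (e : Nat) : Nat := Nat.land e 63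
noncomputable def entN (e : Nat) : Nat := Nat.land (Nat.shiftRight e 6) 4294967295
noncomputable def entE (e : Nat) : Nat := Nat.shiftRight e 38

noncomputable def sig (t i : Nat) : Nat := Nat.land (Nat.shiftRight t (Nat.mul 3 i)) 7

noncomputable def lam (t i x : Nat) : Nat :=
  Nat.land (Nat.shiftRight t (Nat.add 24 (Nat.add (Nat.mul 64 i) (Nat.mul 4 x)))) 15

noncomputable def eidx (P : Par) (t j : Nat) : Nat :=
  Nat.land (Nat.shiftRight t (Nat.add (Nat.add 24 (Nat.mul 64 P.r)) (Nat.mul 6 j))) 63

/-- number of bits of the token -/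
noncomputable def refLen (P : Par) (kL : Nat) : Nat :=
  Nat.add (Nat.add 24 (Nat.mul 64 P.r)) (Nat.mul 6 kL)

/-- `g 0, …, g (n - 1)` are pairwise different and `< N` (`m` = mask of the values seen) -/
noncomputable def injOK (N : Nat) (g : Nat → Nat) : Nat → Nat → Bool :=
  Nat.rec (fun _ => true)
    (fun x ih m => Bool.and
      (Bool.and (Nat.ble (Nat.succ (g x)) N) (Nat.beq (Nat.land (Nat.shiftRight m (g x)) 1) 0))
      (ih (Nat.lor m (Nat.shiftLeft 1 (g x)))))

/-- label of the edge mask `o` in part `i` -/
noncomputable def labOf (o i : Nat) : Nat :=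
  Nat.log2 (Nat.land (Nat.shiftRight o (Nat.mul 16 i)) 65535)

/-- image of the edge mask `o` of the lemma; the flag is false if a part of `o` is empty or its
label is not in use -/
noncomputable def imgOK (nL o : Nat) : Nat → Bool :=
  Nat.rec true (fun i ih => Bool.and ih
    (Bool.and (Bool.not (Nat.beq (Nat.land (Nat.shiftRight o (Nat.mul 16 i)) 65535) 0))
      (Nat.ble (Nat.succ (labOf o i)) (cnt nL i))))

noncomputable def img (t o : Nat) : Nat → Nat :=
  Nat.rec 0 (fun i ih =>
    Nat.lor ih (Nat.shiftLeft 1 (Nat.add (Nat.mul 16 (sig t i)) (lam t i (labOf o i)))))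

/-- the parts: labels of the lemma are mapped injectively to labels in use -/
noncomputable def partsOK (nL t : Nat) : Nat → Bool :=
  Nat.rec true (fun i ih => Bool.and ih
    (Bool.and (Nat.ble (cnt nL i) 14)
      (injOK 16 (fun x => lam t i x) (cnt nL i) 0)))

/-- all images of labels are labels in use -/
noncomputable def usedOK (U t : Nat) (i : Nat) : Nat → Bool :=
  Nat.rec true (fun x ih => Bool.and ih
    (Nat.beq (Nat.land (Nat.shiftRight U (Nat.add (Nat.mul 16 (sig t i)) (lam t i x))) 1) 1))

noncomputable def usedAll (nL U t : Nat) : Nat → Bool :=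
  Nat.rec true (fun i ih => Bool.and ih (usedOK U t i (cnt nL i)))

noncomputable def edgesOK (P : Par) (KL nL K k t : Nat) : Nat → Bool :=
  Nat.rec true (fun j ih => Bool.and ih
    (Bool.and (imgOK nL (edgeAt P KL j) P.r)
      (Bool.and (Nat.ble (Nat.succ (eidx P t j)) k)
        (Nat.beq (img t (edgeAt P KL j) P.r) (edgeAt P K (eidx P t j))))))

/-- the lemma `e` (an entry of the data base) embeds into the state `K k U` -/
noncomputable def refOK (P : Par) (e K k U t : Nat) : Bool :=
  Bool.and (injOK P.r (fun i => sig t i) P.r 0)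
    (Bool.and (partsOK (entN e) t P.r)
      (Bool.and (usedAll (entN e) U t P.r)
        (edgesOK P (entE e) (entN e) K k t (entK e))))

/-! ### the machine -/

/-- after a commit: read the cover and go on -/
noncomputable def avoid (P : Par) (ih : Nat → Nat → Nat → Nat → Nat → Nat → Nat → Nat)
    (K k U Fm s : Nat) : Nat :=
  ih K k U Fm (Nat.xor (Nat.lor U Fm) (Nat.land (posMask P.c s) U)) 0
    (Nat.shiftRight s (Nat.mul 7 P.c))

/-- commit the pending edge `A`; `kind = false`: new cover, `kind = true`: reference -/
noncomputable def commit (P : Par) (db : Nat → Nat) (cur : Nat)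
    (ih : Nat → Nat → Nat → Nat → Nat → Nat → Nat → Nat) (kind : Bool)
    (K k U Fm s : Nat) : Nat :=
  Bool.rec
    (avoid P ih K k U Fm s)
    (Bool.rec 0
      (Nat.shiftRight s (Nat.add 24 (refLen P (entK (db (Nat.land s 16777215))))))
      (Bool.and (Nat.ble (Nat.succ (Nat.land s 16777215)) cur)
        (refOK P (db (Nat.land s 16777215)) K k U (Nat.shiftRight s 24))))
    kind

/-- one step; `s` is the stream of tokens, the result is the rest of the stream, `0` = failure.
Token: 2 bits kind. `0`: split by edges `a`, `b` (6 bits each); `1`: split a part (3 bits);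
`2`: commit and new cover (`c` positions of 7 bits); `3`: commit and reference (24 bits number of
the lemma, then the token of `refOK`). -/
noncomputable def step (P : Par) (db : Nat → Nat) (cur : Nat)
    (ih : Nat → Nat → Nat → Nat → Nat → Nat → Nat → Nat) (K k U Fm A Sg s : Nat) : Nat :=
  Bool.rec
    -- kinds 0, 1
    (Bool.rec
      (Bool.rec 0
        (opts (ih K k U Fm) Sg 16
          (Nat.land (splitMask P K (Nat.land (Nat.shiftRight s 2) 63)
            (Nat.land (Nat.shiftRight s 8) 63)) A) A (Nat.shiftRight s 14))
        (splitOK P K k (Nat.land (Nat.shiftRight s 2) 63) (Nat.land (Nat.shiftRight s 8) 63)))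
      (Bool.rec 0
        (opts (ih K k U Fm) Sg 16
          (Nat.land (Nat.shiftLeft 65535 (Nat.mul 16 (Nat.land (Nat.shiftRight s 2) 7))) A) A
          (Nat.shiftRight s 5))
        (Nat.ble (Nat.succ (Nat.land (Nat.shiftRight s 2) 7)) P.r))
      (Nat.beq (Nat.land s 1) 1))
    -- kinds 2, 3
    (Bool.rec 0
      (commit P db cur ih (Nat.beq (Nat.land s 1) 1)
        (Nat.lor K (Nat.shiftLeft A (Nat.mul P.wd k))) (Nat.succ k)
        (Nat.lor U (Nat.land A Fm))
        (Nat.lor (Nat.xor Fm (Nat.land A Fm)) (Nat.shiftLeft (Nat.land A Fm) 1))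
        (Nat.shiftRight s 2))
      (Bool.and (Nat.beq Sg P.all)
        (Nat.beq (Nat.land (Nat.shiftLeft (Nat.land A Fm) 1) P.top) 0)))
    (Nat.beq (Nat.land (Nat.shiftRight s 1) 1) 1)

/-- the machine: fuel, then `K k U Fm A Sg s` -/
noncomputable def go (P : Par) (db : Nat → Nat) (cur : Nat) :
    Nat → Nat → Nat → Nat → Nat → Nat → Nat → Nat → Nat :=
  Nat.rec (fun _ _ _ _ _ _ _ => 0) (fun _ ih => step P db cur ih)

/-- prove the lemmas `i0 ≤ i < i1`: the stream starts with the cover of the root of lemma `i0` -/
noncomputable def runL (P : Par) (db : Nat → Nat) (fuel i1 : Nat) : Nat → Nat → Nat → Nat :=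
  Nat.rec (fun i s => Bool.rec 0 s (Nat.beq i i1))
    (fun _ ih i s =>
      Bool.rec
        (ih (Nat.succ i)
          (avoid P (go P db i fuel) (entE (db i)) (entK (db i)) (mkU (entN (db i)) P.r)
            (mkF (entN (db i)) P.r) s))
        s (Nat.beq i i1))

noncomputable def checkRange (P : Par) (db : Nat → Nat) (fuel i0 i1 s : Nat) : Bool :=
  Nat.beq (runL P db fuel i1 (Nat.succ (Nat.sub i1 i0)) i0 s) 1

end Vale.Agent.P045
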