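import Mathlib

/-!
# P045 (Ryser's conjecture): statement layer and reduction to the function model

An `r`-partite `r`-uniform hypergraph on the vertex type `V`: a map `part : V → Fin r` (the parts are
its fibres) and a finite set of edges, every edge containing exactly one vertex of each part.
-/

namespace Vale.Agent.P045

universe u

/-- An `r`-partite `r`-uniform hypergraph with vertex type `V`. -/
structure PartiteHypergraph (r : ℕ) (V : Type*) where
  /-- the part of a vertex -/
  part : V → Fin r
  /-- the edges -/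
  edges : Finset (Finset V)
  /-- every edge contains exactly one vertex of each part -/
  one_each : ∀ e ∈ edges, ∀ i : Fin r, ∃! v, v ∈ e ∧ part v = i

namespace PartiteHypergraph

variable {r : ℕ} {V : Type*} (H : PartiteHypergraph r V)

/-- `C` is a vertex cover: it meets every edge. -/
def IsCover (C : Finset V) : Prop := ∀ e ∈ H.edges, ∃ v ∈ C, v ∈ e

/-- `M` is a matching: a set of pairwise disjoint edges. -/
def IsMatching (M : Finset (Finset V)) : Prop :=
  M ⊆ H.edges ∧ ∀ e ∈ M, ∀ f ∈ M, e ≠ f → Disjoint e f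

/-- the covering number: the minimum size of a vertex cover. -/
noncomputable def tau : ℕ := sInf {n | ∃ C : Finset V, H.IsCover C ∧ C.card = n}

/-- the matching number: the maximum number of pairwise disjoint edges. -/
noncomputable def nu : ℕ := sSup {n | ∃ M : Finset (Finset V), H.IsMatching M ∧ M.card = n}

end PartiteHypergraph

/-- the statement on families of functions to which everything is reduced: a family of
`r`-tuples without `k + 1` pairwise disjoint members has a cover by `c` pairs (coordinate, value). -/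
def CoreTwo (c : ℕ) : Prop :=
  ∀ (α : Type u) (F : Set (Fin 4 → α)),
    (∀ e ∈ F, ∀ f ∈ F, ∃ i, e i = f i) →
    ∃ S : Finset (Fin 4 × α), S.card ≤ c ∧ ∀ e ∈ F, ∃ i, (i, e i) ∈ S

def CoreThree (c : ℕ) : Prop :=
  ∀ (α : Type u) (F : Set (Fin 4 → α)),
    (∀ e ∈ F, ∀ f ∈ F, ∀ g ∈ F, (∃ i, e i = f i) ∨ (∃ i, e i = g i) ∨ (∃ i, f i = g i)) →
    ∃ S : Finset (Fin 4 × α), S.card ≤ c ∧ ∀ e ∈ F, ∃ i, (i, e i) ∈ S

namespace PartiteHypergraph

variable {V : Type u} (H : PartiteHypergraph 4 V)

/-- the tuples of the edges. -/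
def tuples : Set (Fin 4 → V) := {f | ∃ e ∈ H.edges, ∀ i, f i ∈ e ∧ H.part (f i) = i}

theorem exists_tuple {e : Finset V} (he : e ∈ H.edges) :
    ∃ f : Fin 4 → V, ∀ i, f i ∈ e ∧ H.part (f i) = i := by
  choose f hf _ using fun i => H.one_each e he i
  exact ⟨f, hf⟩

theorem not_disjoint_of_eq {e e' : Finset V} {f f' : Fin 4 → V}
    (hf : ∀ i, f i ∈ e ∧ H.part (f i) = i) (hf' : ∀ i, f' i ∈ e' ∧ H.part (f' i) = i)
    {i : Fin 4} (h : f i = f' i) : ¬ Disjoint e e' := by
  intro hd
  exact (Finset.disjoint_left.mp hd (hf i).1) (h ▸ (hf' i).1)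

theorem eq_of_not_disjoint {e e' : Finset V} (he : e ∈ H.edges) (he' : e' ∈ H.edges)
    {f f' : Fin 4 → V}
    (hf : ∀ i, f i ∈ e ∧ H.part (f i) = i) (hf' : ∀ i, f' i ∈ e' ∧ H.part (f' i) = i)
    (h : ¬ Disjoint e e') : ∃ i, f i = f' i := by
  rw [Finset.not_disjoint_iff] at h
  obtain ⟨v, hv, hv'⟩ := h
  refine ⟨H.part v, ?_⟩
  have h1 := (H.one_each e he (H.part v)).unique (hf _) ⟨hv, rfl⟩
  have h2 := (H.one_each e' he' (H.part v)).unique (hf' _) ⟨hv', rfl⟩
  rw [h1, h2]

theorem edge_nonempty {e : Finset V} (he : e ∈ H.edges) : e.Nonempty := by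
  obtain ⟨f, hf⟩ := H.exists_tuple he
  exact ⟨f 0, (hf 0).1⟩

theorem card_le_nu {M : Finset (Finset V)} (hM : H.IsMatching M) : M.card ≤ H.nu := by
  refine le_csSup ⟨H.edges.card, ?_⟩ ⟨M, hM, rfl⟩
  rintro n ⟨M', hM', rfl⟩
  exact Finset.card_le_card hM'.1

theorem tau_le {C : Finset V} (hC : H.IsCover C) : H.tau ≤ C.card :=
  Nat.sInf_le ⟨C, hC, rfl⟩

theorem cover_of_tuples [DecidableEq V] {c : ℕ} (S : Finset (Fin 4 × V)) (hS : S.card ≤ c)
    (h : ∀ e ∈ H.tuples, ∃ i, (i, e i) ∈ S) : H.tau ≤ c := by
  refine (H.tau_le (C := S.image Prod.snd) ?_).trans (Finset.card_image_le.trans hS)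
  intro e he
  obtain ⟨f, hf⟩ := H.exists_tuple he
  obtain ⟨i, hi⟩ := h f ⟨e, he, hf⟩
  exact ⟨f i, Finset.mem_image.mpr ⟨(i, f i), hi, rfl⟩, (hf i).1⟩

/-- The reduction: Ryser's inequality for `r = 4` and `ν ≤ 2` from the two core statements. -/
theorem tau_le_of_core (h1 : CoreTwo.{u} 3) (h2 : CoreThree.{u} 6) (hν : H.nu ≤ 2) :
    H.tau ≤ 3 * H.nu := by
  classical
  have hpair : ∀ e ∈ H.edges, ∀ f ∈ H.edges, Disjoint e f → 2 ≤ H.nu := by
    intro e he f hf hd
    have hne : e ≠ f := by
      rintro rfl
      exact (H.edge_nonempty he).ne_empty (Finset.disjoint_self_iff_empty e |>.mp hd)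
    have hM : H.IsMatching {e, f} := by
      refine ⟨?_, ?_⟩
      · intro x hx
        rcases Finset.mem_insert.mp hx with rfl | hx
        · exact he
        · rw [Finset.mem_singleton.mp hx]; exact hf
      · intro x hx y hy hxy
        simp only [Finset.mem_insert, Finset.mem_singleton] at hx hy
        rcases hx with rfl | rfl <;> rcases hy with rfl | rfl
        · exact absurd rfl hxy
        · exact hd
        · exact hd.symm
        · exact absurd rfl hxy
    have := H.card_le_nu hM
    rwa [Finset.card_pair hne] at this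
  have htriple : ∀ e ∈ H.edges, ∀ f ∈ H.edges, ∀ g ∈ H.edges, Disjoint e f → Disjoint e g →
      Disjoint f g → 3 ≤ H.nu := by
    intro e he f hf g hg hef heg hfg
    have hne : ∀ x ∈ H.edges, ∀ y, Disjoint x y → x ≠ y := by
      rintro x hx y hd rfl
      exact (H.edge_nonempty hx).ne_empty (Finset.disjoint_self_iff_empty x |>.mp hd)
    have hM : H.IsMatching {e, f, g} := by
      refine ⟨?_, ?_⟩
      · intro x hx
        simp only [Finset.mem_insert, Finset.mem_singleton] at hx
        rcases hx with rfl | rfl | rfl <;> assumption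
      · intro x hx y hy hxy
        simp only [Finset.mem_insert, Finset.mem_singleton] at hx hy
        rcases hx with rfl | rfl | rfl <;> rcases hy with rfl | rfl | rfl <;>
          first
            | exact absurd rfl hxy
            | assumption
            | (apply Disjoint.symm; assumption)
    have := H.card_le_nu hM
    rwa [Finset.card_eq_three.mpr ⟨e, f, g, hne e he f hef, hne e he g heg, hne f hf g hfg, rfl⟩]
      at this
  have hcases : H.nu = 0 ∨ H.nu = 1 ∨ H.nu = 2 := by omega
  rcases hcases with h0 | h0 | h0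
  · -- no edge
    have hno : H.edges = ∅ := by
      by_contra hne
      obtain ⟨e, he⟩ := Finset.nonempty_iff_ne_empty.mpr hne
      have hM : H.IsMatching {e} := by
        refine ⟨by simpa using he, ?_⟩
        intro x hx y hy hxy
        rw [Finset.mem_singleton.mp hx, Finset.mem_singleton.mp hy] at hxy
        exact absurd rfl hxy
      have := H.card_le_nu hM
      rw [Finset.card_singleton] at this
      omega
    have : H.IsCover ∅ := by
      intro e he
      rw [hno] at he
      exact absurd he (Finset.notMem_empty e)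
    have := H.tau_le this
    simpa [h0] using this
  · obtain ⟨S, hS, hc⟩ := h1 V H.tuples (by
      rintro a ⟨e, he, ha⟩ b ⟨f, hf, hb⟩
      refine H.eq_of_not_disjoint he hf ha hb ?_
      intro hd
      have := hpair e he f hf hd
      omega)
    rw [h0]
    exact H.cover_of_tuples S hS hc
  · obtain ⟨S, hS, hc⟩ := h2 V H.tuples (by
      rintro a ⟨e, he, ha⟩ b ⟨f, hf, hb⟩ c ⟨g, hg, hc⟩
      by_contra hcon
      push Not at hcon
      obtain ⟨c1, c2, c3⟩ := hcon
      have d1 : Disjoint e f := by
        by_contra hd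
        obtain ⟨i, hi⟩ := H.eq_of_not_disjoint he hf ha hb hd
        exact c1 i hi
      have d2 : Disjoint e g := by
        by_contra hd
        obtain ⟨i, hi⟩ := H.eq_of_not_disjoint he hg ha hc hd
        exact c2 i hi
      have d3 : Disjoint f g := by
        by_contra hd
        obtain ⟨i, hi⟩ := H.eq_of_not_disjoint hf hg hb hc hd
        exact c3 i hi
      have := htriple e he f hf g hg d1 d2 d3
      omega)
    rw [h0]
    exact H.cover_of_tuples S hS hc

end PartiteHypergraph

end Vale.Agent.P045
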