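import Vale.Agent.P045.Front
import Vale.Agent.P045.Defs

/-!
# P045: from the checker statement `¬ Bad P E` to the core statements of `Front.lean`
-/

namespace Vale.Agent.P045

universe u

/-- extend a 4-tuple to a function on the natural numbers -/
def ext4 {α : Type u} (e : Fin 4 → α) (n : ℕ) : α := if h : n < 4 then e ⟨n, h⟩ else e 0

theorem ext4_val {α : Type u} (e : Fin 4 → α) (i : Fin 4) : ext4 e i.val = e i := by
  unfold ext4
  rw [dif_pos i.isLt]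

theorem nocover_of {α : Type u} {F : Set (Fin 4 → α)} {c : ℕ}
    (hno : ¬ ∃ S : Finset (Fin 4 × α), S.card ≤ c ∧ ∀ e ∈ F, ∃ i, (i, e i) ∈ S)
    (C : List (ℕ × α)) (hC : C.length ≤ c) :
    ∃ v, (∃ e ∈ F, v = ext4 e) ∧ ∀ i, i < 4 → (i, v i) ∉ C := by
  classical
  by_contra hcon
  apply hno
  refine ⟨(C.filterMap (fun p => if h : p.1 < 4 then some ((⟨p.1, h⟩ : Fin 4), p.2) else none)).toFinset,
    ?_, ?_⟩
  · exact (List.toFinset_card_le _).trans ((List.length_filterMap_le _ _).trans hC)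
  · intro e he
    by_contra hne
    apply hcon
    refine ⟨ext4 e, ⟨e, he, rfl⟩, ?_⟩
    intro i hi hmem
    apply hne
    refine ⟨⟨i, hi⟩, ?_⟩
    rw [List.mem_toFinset, List.mem_filterMap]
    refine ⟨(i, ext4 e i), hmem, ?_⟩
    have h1 : ext4 e i = e ⟨i, hi⟩ := ext4_val e ⟨i, hi⟩
    simp only [hi, dite_true, h1]

theorem coreThree_of {P : Par} (hr : P.r = 4) (htwo : P.two = true)
    (h : ∀ (V : Type u) (E : (ℕ → V) → Prop), ¬ Bad P E) : CoreThree.{u} P.c := by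
  intro α F hF
  by_contra hno
  refine h α (fun v => ∃ e ∈ F, v = ext4 e) ⟨?_, ?_, ?_⟩
  · intro h0
    rw [htwo] at h0
    exact absurd h0 (by decide)
  · rintro _ _ _ _ ⟨e, he, rfl⟩ ⟨f, hf, rfl⟩ ⟨g, hg, rfl⟩
    rw [hr]
    rcases hF e he f hf g hg with ⟨i, hi⟩ | ⟨i, hi⟩ | ⟨i, hi⟩
    · exact Or.inl ⟨i.val, i.isLt, by rw [ext4_val, ext4_val, hi]⟩
    · exact Or.inr (Or.inl ⟨i.val, i.isLt, by rw [ext4_val, ext4_val, hi]⟩)
    · exact Or.inr (Or.inr ⟨i.val, i.isLt, by rw [ext4_val, ext4_val, hi]⟩)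
  · intro C hC
    rw [hr]
    exact nocover_of hno C hC

theorem coreTwo_of {P : Par} (hr : P.r = 4) (htwo : P.two = false)
    (h : ∀ (V : Type u) (E : (ℕ → V) → Prop), ¬ Bad P E) : CoreTwo.{u} P.c := by
  intro α F hF
  by_contra hno
  refine h α (fun v => ∃ e ∈ F, v = ext4 e) ⟨?_, ?_, ?_⟩
  · rintro _ _ _ ⟨e, he, rfl⟩ ⟨f, hf, rfl⟩
    rw [hr]
    obtain ⟨i, hi⟩ := hF e he f hf
    exact ⟨i.val, i.isLt, by rw [ext4_val, ext4_val, hi]⟩
  · intro h0
    rw [htwo] at h0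
    exact absurd h0 (by decide)
  · intro C hC
    rw [hr]
    exact nocover_of hno C hC

end Vale.Agent.P045
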