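import Mathlib

/-!
# P045: the theorem of König (bipartite graphs: covering number = matching number)

Form used for the openings of the extension trees: a set `E` of pairs either has a cover by at most
`n` vertices or contains `n + 1` pairs that differ pairwise in both coordinates.  `E` may be
infinite.
-/

namespace Vale.Agent.P045

universe u v

variable {A : Type u} {B : Type v}

/-- one side of the proof: a minimum cover `(S, T)`; then `S` can be matched into the complement of
`T` (Hall). -/
theorem konig_side (E : Finset (A × B)) (S : Finset A) (T : Finset B)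
    (hc : ∀ e ∈ E, e.1 ∈ S ∨ e.2 ∈ T)
    (hmin : ∀ (S' : Finset A) (T' : Finset B), (∀ e ∈ E, e.1 ∈ S' ∨ e.2 ∈ T') →
      S.card + T.card ≤ S'.card + T'.card) :
    ∃ f : S → B, Function.Injective f ∧ ∀ x : S, ((x : A), f x) ∈ E ∧ f x ∉ T := by
  classical
  let t : S → Finset B := fun x => (E.filter (fun e => e.1 = (x : A) ∧ e.2 ∉ T)).image Prod.snd
  have hall : ∀ X : Finset S, X.card ≤ (X.biUnion t).card := by
    intro X
    by_contra hlt
    push Not at hlt
    have hsub : X.map (Function.Embedding.subtype _) ⊆ S := by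
      intro a ha
      obtain ⟨x, _, rfl⟩ := Finset.mem_map.mp ha
      exact x.2
    have key := hmin (S \ X.map (Function.Embedding.subtype _)) (T ∪ X.biUnion t) (by
      intro e he
      by_cases h2 : e.2 ∈ T
      · exact Or.inr (Finset.mem_union_left _ h2)
      · have h1 : e.1 ∈ S := (hc e he).resolve_right h2
        by_cases hX : (⟨e.1, h1⟩ : S) ∈ X
        · right
          refine Finset.mem_union_right _ (Finset.mem_biUnion.mpr ⟨⟨e.1, h1⟩, hX, ?_⟩)
          exact Finset.mem_image.mpr ⟨e, Finset.mem_filter.mpr ⟨he, rfl, h2⟩, rfl⟩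
        · left
          refine Finset.mem_sdiff.mpr ⟨h1, ?_⟩
          intro hm
          obtain ⟨x, hx, hxe⟩ := Finset.mem_map.mp hm
          apply hX
          have : x = ⟨e.1, h1⟩ := Subtype.ext hxe
          rwa [← this])
    have h1 : (S \ X.map (Function.Embedding.subtype _)).card = S.card - X.card := by
      rw [Finset.card_sdiff_of_subset hsub, Finset.card_map]
    have h2 : (T ∪ X.biUnion t).card ≤ T.card + (X.biUnion t).card := Finset.card_union_le _ _
    have h3 : X.card ≤ S.card := by
      have := Finset.card_le_card hsub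
      rwa [Finset.card_map] at this
    omega
  obtain ⟨f, hf, hft⟩ := (Finset.all_card_le_biUnion_card_iff_exists_injective t).mp hall
  refine ⟨f, hf, fun x => ?_⟩
  obtain ⟨e, he, hex⟩ := Finset.mem_image.mp (hft x)
  obtain ⟨heE, he1, he2⟩ := Finset.mem_filter.mp he
  constructor
  · have : e = ((x : A), f x) := Prod.ext he1 hex
    rwa [← this]
  · rwa [← hex]

/-- König's theorem for a finite set of pairs. -/
theorem konig_finset (E : Finset (A × B)) (n : ℕ) :
    (∃ (S : Finset A) (T : Finset B), S.card + T.card ≤ n ∧ ∀ e ∈ E, e.1 ∈ S ∨ e.2 ∈ T) ∨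
    (∃ m : Fin (n + 1) → A × B, (∀ k, m k ∈ E) ∧ Function.Injective (fun k => (m k).1) ∧
      Function.Injective (fun k => (m k).2)) := by
  classical
  have hex : ∃ k, ∃ (S : Finset A) (T : Finset B), S.card + T.card = k ∧
      ∀ e ∈ E, e.1 ∈ S ∨ e.2 ∈ T :=
    ⟨_, E.image Prod.fst, ∅, rfl, fun e he => Or.inl (Finset.mem_image_of_mem _ he)⟩
  obtain ⟨S, T, hk, hc⟩ := Nat.find_spec hex
  have hmin : ∀ (S' : Finset A) (T' : Finset B), (∀ e ∈ E, e.1 ∈ S' ∨ e.2 ∈ T') →
      S.card + T.card ≤ S'.card + T'.card := by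
    intro S' T' h'
    rw [hk]
    exact Nat.find_min' hex ⟨S', T', rfl, h'⟩
  by_cases hn : S.card + T.card ≤ n
  · exact Or.inl ⟨S, T, hn, hc⟩
  right
  obtain ⟨f, hf, hfE⟩ := konig_side E S T hc hmin
  obtain ⟨g, hg, hgE⟩ := konig_side (E.image Prod.swap) T S (by
      intro e he
      obtain ⟨e', he', rfl⟩ := Finset.mem_image.mp he
      exact (hc e' he').symm) (by
      intro T' S' h'
      have := hmin S' T' (fun e he => (h' e.swap (Finset.mem_image_of_mem _ he)).symm)
      omega)
  have hgE' : ∀ y : T, (g y, (y : B)) ∈ E ∧ g y ∉ S := by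
    intro y
    obtain ⟨h1, h2⟩ := hgE y
    obtain ⟨e', he', hs⟩ := Finset.mem_image.mp h1
    refine ⟨?_, h2⟩
    have : e' = (g y, (y : B)) := by
      rw [← Prod.swap_swap e', hs]; rfl
    rwa [← this]
  let m' : S ⊕ T → A × B := Sum.elim (fun x => ((x : A), f x)) (fun y => (g y, (y : B)))
  have hcard : Fintype.card (Fin (n + 1)) ≤ Fintype.card (S ⊕ T) := by
    simp only [Fintype.card_fin, Fintype.card_sum, Fintype.card_coe]
    omega
  obtain ⟨ι⟩ := Function.Embedding.nonempty_of_card_le hcard
  have hE' : ∀ z, m' z ∈ E := by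
    rintro (x | y)
    · exact (hfE x).1
    · exact (hgE' y).1
  have h1 : Function.Injective (fun z => (m' z).1) := by
    rintro (x | y) (x' | y') hkl
    · exact congrArg _ (Subtype.ext hkl)
    · exact absurd (show g y' ∈ S from (show (x : A) = g y' from hkl) ▸ x.2) (hgE' y').2
    · exact absurd (show g y ∈ S from (show g y = (x' : A) from hkl).symm ▸ x'.2) (hgE' y).2
    · exact congrArg _ (hg hkl)
  have h2 : Function.Injective (fun z => (m' z).2) := by
    rintro (x | y) (x' | y') hkl
    · exact congrArg _ (hf hkl)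
    · exact absurd (show f x ∈ T from (show f x = (y' : B) from hkl).symm ▸ y'.2) (hfE x).2
    · exact absurd (show f x' ∈ T from (show (y : B) = f x' from hkl) ▸ y.2) (hfE x').2
    · exact congrArg _ (Subtype.ext hkl)
  exact ⟨fun k => m' (ι k), fun k => hE' _, fun k l h => ι.injective (h1 h),
    fun k l h => ι.injective (h2 h)⟩

/-- bounded search tree: a set of pairs without a cover by `n` vertices has a finite subset without
such a cover. -/
theorem konig_finite_core (n : ℕ) : ∀ (E : Set (A × B)),
    (¬ ∃ (S : Finset A) (T : Finset B), S.card + T.card ≤ n ∧ ∀ e ∈ E, e.1 ∈ S ∨ e.2 ∈ T) →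
    ∃ E' : Finset (A × B), (∀ e ∈ E', e ∈ E) ∧
      ¬ ∃ (S : Finset A) (T : Finset B), S.card + T.card ≤ n ∧ ∀ e ∈ E', e.1 ∈ S ∨ e.2 ∈ T := by
  classical
  have hne : ∀ (k : ℕ) (E : Set (A × B)),
      (¬ ∃ (S : Finset A) (T : Finset B), S.card + T.card ≤ k ∧ ∀ e ∈ E, e.1 ∈ S ∨ e.2 ∈ T) →
      ∃ e, e ∈ E := by
    intro k E h
    by_contra hno
    push Not at hno
    exact h ⟨∅, ∅, by simp, fun e he => absurd he (hno e)⟩
  induction n with
  | zero =>
    intro E h
    obtain ⟨e, he⟩ := hne 0 E h
    refine ⟨{e}, fun x hx => by rw [Finset.mem_singleton.mp hx]; exact he, ?_⟩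
    rintro ⟨S, T, hc, hcov⟩
    have hS : S = ∅ := Finset.card_eq_zero.mp (by omega)
    have hT : T = ∅ := Finset.card_eq_zero.mp (by omega)
    have := hcov e (Finset.mem_singleton_self e)
    simp [hS, hT] at this
  | succ n ih =>
    intro E h
    obtain ⟨e, he⟩ := hne (n + 1) E h
    obtain ⟨Ea, hEa, hna⟩ := ih {x | x ∈ E ∧ x.1 ≠ e.1} (by
      rintro ⟨S, T, hc, hcov⟩
      apply h
      refine ⟨insert e.1 S, T, ?_, ?_⟩
      · have := Finset.card_insert_le e.1 S
        omega
      · intro x hx
        by_cases hx1 : x.1 = e.1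
        · left; rw [hx1]; exact Finset.mem_insert_self _ _
        · rcases hcov x ⟨hx, hx1⟩ with h | h
          · left; exact Finset.mem_insert_of_mem h
          · right; exact h)
    obtain ⟨Eb, hEb, hnb⟩ := ih {x | x ∈ E ∧ x.2 ≠ e.2} (by
      rintro ⟨S, T, hc, hcov⟩
      apply h
      refine ⟨S, insert e.2 T, ?_, ?_⟩
      · have := Finset.card_insert_le e.2 T
        omega
      · intro x hx
        by_cases hx1 : x.2 = e.2
        · right; rw [hx1]; exact Finset.mem_insert_self _ _
        · rcases hcov x ⟨hx, hx1⟩ with h | h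
          · left; exact h
          · right; exact Finset.mem_insert_of_mem h)
    refine ⟨insert e (Ea ∪ Eb), ?_, ?_⟩
    · intro x hx
      rcases Finset.mem_insert.mp hx with rfl | hx
      · exact he
      · rcases Finset.mem_union.mp hx with hx | hx
        · exact (hEa x hx).1
        · exact (hEb x hx).1
    · rintro ⟨S, T, hc, hcov⟩
      rcases hcov e (Finset.mem_insert_self _ _) with h1 | h2
      · apply hna
        refine ⟨S.erase e.1, T, ?_, ?_⟩
        · have := Finset.card_erase_of_mem h1
          have hpos : 0 < S.card := Finset.card_pos.mpr ⟨_, h1⟩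
          omega
        · intro x hx
          rcases hcov x (Finset.mem_insert_of_mem (Finset.mem_union_left _ hx)) with h | h
          · left; exact Finset.mem_erase.mpr ⟨(hEa x hx).2, h⟩
          · right; exact h
      · apply hnb
        refine ⟨S, T.erase e.2, ?_, ?_⟩
        · have := Finset.card_erase_of_mem h2
          have hpos : 0 < T.card := Finset.card_pos.mpr ⟨_, h2⟩
          omega
        · intro x hx
          rcases hcov x (Finset.mem_insert_of_mem (Finset.mem_union_right _ hx)) with h | h
          · left; exact h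
          · right; exact Finset.mem_erase.mpr ⟨(hEb x hx).2, h⟩

/-- König's theorem for an arbitrary (possibly infinite) set of pairs: a cover by at most `n`
vertices, or `n + 1` pairs that differ pairwise in both coordinates. -/
theorem konig_set (E : Set (A × B)) (n : ℕ) :
    (∃ (S : Finset A) (T : Finset B), S.card + T.card ≤ n ∧ ∀ e ∈ E, e.1 ∈ S ∨ e.2 ∈ T) ∨
    (∃ m : Fin (n + 1) → A × B, (∀ k, m k ∈ E) ∧ Function.Injective (fun k => (m k).1) ∧
      Function.Injective (fun k => (m k).2)) := by
  by_cases h : ∃ (S : Finset A) (T : Finset B), S.card + T.card ≤ n ∧ ∀ e ∈ E, e.1 ∈ S ∨ e.2 ∈ T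
  · exact Or.inl h
  · right
    obtain ⟨E', hE', hn⟩ := konig_finite_core n E h
    rcases konig_finset E' n with h' | ⟨m, hm, h1, h2⟩
    · exact absurd h' hn
    · exact ⟨m, fun k => hE' _ (hm k), h1, h2⟩

end Vale.Agent.P045
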