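import Mathlib
import Vale.Agent.P045.Defs
import Vale.Agent.P045.Konig

/-!
# P045: the König opening

In a bad hypergraph (no cover by `c` vertices) there are `c + 1` edges that differ pairwise in
coordinate `i` and in coordinate `j`.
-/

namespace Vale.Agent.P045

universe u

/-- the König opening: `c + 1` edges pairwise different in the parts `i` and `j`. -/
theorem Bad.konig {V : Type u} {P : Par} {E : (ℕ → V) → Prop} (hB : Bad P E) {i j : ℕ}
    (hi : i < P.r) (hj : j < P.r) :
    ∃ m : Fin (P.c + 1) → (ℕ → V), (∀ k, E (m k)) ∧ Function.Injective (fun k => m k i) ∧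
      Function.Injective (fun k => m k j) := by
  classical
  rcases konig_set {p : V × V | ∃ e, E e ∧ p = (e i, e j)} P.c with
    ⟨S, T, hc, hcov⟩ | ⟨m, hm, h1, h2⟩
  · exfalso
    obtain ⟨e, he, hno⟩ := hB.nocover
      (S.toList.map (fun x => (i, x)) ++ T.toList.map (fun x => (j, x))) (by
        simpa using hc)
    rcases hcov (e i, e j) ⟨e, he, rfl⟩ with h | h
    · apply hno i hi
      exact List.mem_append_left _ (List.mem_map.mpr ⟨e i, Finset.mem_toList.mpr h, rfl⟩)
    · apply hno j hj
      exact List.mem_append_right _ (List.mem_map.mpr ⟨e j, Finset.mem_toList.mpr h, rfl⟩)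
  · choose e he hme using hm
    refine ⟨e, he, ?_, ?_⟩
    · intro k l hkl
      apply h1
      show (m k).1 = (m l).1
      rw [hme k, hme l]
      exact hkl
    · intro k l hkl
      apply h2
      show (m k).2 = (m l).2
      rw [hme k, hme l]
      exact hkl

end Vale.Agent.P045
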