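import Vale.Agent.P045.Glue
import Vale.Agent.P045.C41.Main
import Vale.Agent.P045.C42.Main

/-!
# P045: 4-partite hypergraphs with arbitrary matching number, by peeling edges of a matching
-/

namespace Vale.Agent.P045

/-- the case `k ≤ 2` (same proof as in the hand-in `A0_RyserFourTwo`) -/
theorem four_two {V : Type*} (part : V → Fin 4) (edges : Finset (Finset V))
    (hpart : ∀ e ∈ edges, ∀ i : Fin 4, ∃! v, v ∈ e ∧ part v = i)
    (k : ℕ) (hk : k ≤ 2)
    (hmatch : ∀ M : Finset (Finset V), M ⊆ edges →
      (∀ e ∈ M, ∀ f ∈ M, e ≠ f → Disjoint e f) → M.card ≤ k) :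
    ∃ C : Finset V, C.card ≤ 3 * k ∧ ∀ e ∈ edges, ∃ v ∈ C, v ∈ e := by
  classical
  let H : PartiteHypergraph 4 V := ⟨part, edges, hpart⟩
  have hnu : H.nu ≤ k := by
    refine csSup_le ⟨0, ∅, ⟨Finset.empty_subset _, ?_⟩, rfl⟩ ?_
    · intro e he
      exact absurd he (Finset.notMem_empty e)
    · rintro n ⟨M, hM, rfl⟩
      exact hmatch M hM.1 hM.2
  have htau : H.tau ≤ 3 * H.nu :=
    H.tau_le_of_core (coreTwo_of (P := C41.par) rfl rfl C41.core)
      (coreThree_of (P := C42.par) rfl rfl C42.core) (hnu.trans hk)
  have hne : {n | ∃ C : Finset V, H.IsCover C ∧ C.card = n}.Nonempty := by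
    refine ⟨_, edges.biUnion id, ?_, rfl⟩
    intro e he
    obtain ⟨v, hv⟩ := H.edge_nonempty he
    exact ⟨v, Finset.mem_biUnion.2 ⟨e, he, hv⟩, hv⟩
  obtain ⟨C, hC, hcard⟩ := Nat.sInf_mem hne
  refine ⟨C, ?_, hC⟩
  have h1 : C.card = H.tau := hcard
  rw [h1]
  exact htau.trans (Nat.mul_le_mul_left 3 hnu)

/-- an edge has at most four vertices -/
theorem edge_card_le {V : Type*} (part : V → Fin 4) (e : Finset V)
    (h : ∀ i : Fin 4, ∃! v, v ∈ e ∧ part v = i) : e.card ≤ 4 := by
  have h1 : e.card ≤ (Finset.univ : Finset (Fin 4)).card := by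
    refine Finset.card_le_card_of_injOn part (fun v _ => Finset.mem_coe.2 (Finset.mem_univ _)) ?_
    intro a ha b hb hab
    exact (h (part a)).unique ⟨Finset.mem_coe.1 ha, rfl⟩ ⟨Finset.mem_coe.1 hb, hab.symm⟩
  simpa using h1

/-- all matching numbers: `τ ≤ 3 ν + (ν - 2)` (truncated subtraction) -/
theorem four_all {V : Type*} (part : V → Fin 4) (k : ℕ) : ∀ (edges : Finset (Finset V)),
    (∀ e ∈ edges, ∀ i : Fin 4, ∃! v, v ∈ e ∧ part v = i) →
    (∀ M : Finset (Finset V), M ⊆ edges →
      (∀ e ∈ M, ∀ f ∈ M, e ≠ f → Disjoint e f) → M.card ≤ k) →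
    ∃ C : Finset V, C.card ≤ 3 * k + (k - 2) ∧ ∀ e ∈ edges, ∃ v ∈ C, v ∈ e := by
  classical
  induction k with
  | zero =>
    intro edges hpart hmatch
    simpa using four_two part edges hpart 0 (by norm_num) hmatch
  | succ k ih =>
    intro edges hpart hmatch
    by_cases hk : k + 1 ≤ 2
    · obtain ⟨C, hC, hcov⟩ := four_two part edges hpart (k + 1) hk hmatch
      exact ⟨C, hC.trans (Nat.le_add_right _ _), hcov⟩
    · have hk2 : 2 ≤ k := by omega
      rcases edges.eq_empty_or_nonempty with rfl | ⟨e0, he0⟩
      · exact ⟨∅, by simp, by simp⟩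
      · have hne0 : e0.Nonempty := by
          obtain ⟨v, hv, _⟩ := hpart e0 he0 0
          exact ⟨v, hv.1⟩
        obtain ⟨C, hC, hcov⟩ := ih (edges.filter (fun f => Disjoint f e0))
          (fun e he => hpart e (Finset.mem_filter.1 he).1) (by
            intro M hM hdis
            have hnot : e0 ∉ M := by
              intro h
              have := (Finset.mem_filter.1 (hM h)).2
              exact hne0.ne_empty (Finset.disjoint_self_iff_empty e0 |>.mp this)
            have h1 := hmatch (insert e0 M) (by
              intro x hx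
              rcases Finset.mem_insert.1 hx with rfl | hx
              · exact he0
              · exact (Finset.mem_filter.1 (hM hx)).1) (by
              intro x hx y hy hxy
              rcases Finset.mem_insert.1 hx with hx1 | hx1
              · rcases Finset.mem_insert.1 hy with hy1 | hy1
                · exact absurd (hx1.trans hy1.symm) hxy
                · rw [hx1]
                  exact (Finset.mem_filter.1 (hM hy1)).2.symm
              · rcases Finset.mem_insert.1 hy with hy1 | hy1
                · rw [hy1]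
                  exact (Finset.mem_filter.1 (hM hx1)).2
                · exact hdis x hx1 y hy1 hxy)
            rw [Finset.card_insert_of_notMem hnot] at h1
            omega)
        refine ⟨C ∪ e0, ?_, ?_⟩
        · have h4 := edge_card_le part e0 (hpart e0 he0)
          have := Finset.card_union_le C e0
          omega
        · intro e he
          by_cases hd : Disjoint e e0
          · obtain ⟨v, hv, hve⟩ := hcov e (Finset.mem_filter.2 ⟨he, hd⟩)
            exact ⟨v, Finset.mem_union_left _ hv, hve⟩
          · rw [Finset.not_disjoint_iff] at hd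
            obtain ⟨v, hve, hv0⟩ := hd
            exact ⟨v, Finset.mem_union_right _ hv0, hve⟩

end Vale.Agent.P045
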