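import Vale.Agent.P045.Defs

/-!
# P045: soundness of references to earlier lemmas

Sketch.  Let `Emb P E K k U Fm φ c` be given and let `e` be the entry of the lemma, `kL = entK e`,
`nL = entN e`, `KL = entE e`, `σ i = sig t i`, `λ i x = lam t i x`.  From `refOK`:
* `σ` is injective on `[0, r)` with values `< r`, hence a bijection of `[0, r)`;
* `cnt nL i ≤ 14`, `λ i` is injective on `[0, cnt nL i)` and `16 * σ i + λ i x` is a bit of `U`,
  i.e. `λ i x < c (σ i)`;
* for every `j < kL` and `i < r` the part `i` of the edge mask `o = edgeAt P KL j` is non empty,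
  `x = labOf o i < cnt nL i` is one of its bits, and `img t o r = edgeAt P K (eidx P t j)`, so the
  only bit of the edge `eidx P t j` of the current state in part `σ i` is `λ i x`.
Put `E' e' := ∃ e, E e ∧ ∀ i < r, e' i = e (σ i)`, `φ' i x := φ (σ i) (λ i x)`, `c' i := cnt nL i`.
Then `Bad P E'` and `Emb P E' KL kL (mkU nL r) (mkF nL r) φ' c'`, contradiction with `Good P e`.
-/

namespace Vale.Agent.P045

universe u

/-! ### bits -/

theorem rf_land (a b p : ℕ) : (Nat.land a b).testBit p = (a.testBit p && b.testBit p) :=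
  Nat.testBit_and a b p

theorem rf_lor (a b p : ℕ) : (Nat.lor a b).testBit p = (a.testBit p || b.testBit p) :=
  Nat.testBit_or a b p

theorem rf_shr (a s p : ℕ) : (Nat.shiftRight a s).testBit p = a.testBit (s + p) :=
  Nat.testBit_shiftRight a

theorem rf_shl (a s p : ℕ) :
    (Nat.shiftLeft a s).testBit p = (decide (p ≥ s) && a.testBit (p - s)) :=
  Nat.testBit_shiftLeft a

theorem rf_one_shl (s p : ℕ) : (Nat.shiftLeft 1 s).testBit p = decide (s = p) := by
  have h : Nat.shiftLeft 1 s = 2 ^ s := Nat.one_shiftLeft s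
  rw [h, Nat.testBit_two_pow]

theorem rf_low (m p : ℕ) : Nat.land (Nat.shiftRight m p) 1 = m / 2 ^ p % 2 := by
  have h : Nat.land (Nat.shiftRight m p) 1 = (m >>> p) &&& 1 := rfl
  rw [h, Nat.and_one_is_mod, Nat.shiftRight_eq_div_pow]

theorem rf_bit1 {m p : ℕ} (h : Nat.beq (Nat.land (Nat.shiftRight m p) 1) 1 = true) :
    m.testBit p = true := by
  rw [Nat.beq_eq, rf_low] at h
  rw [Nat.testBit_eq_decide_div_mod_eq, h]
  rfl

theorem rf_bit0 {m p : ℕ} (h : Nat.beq (Nat.land (Nat.shiftRight m p) 1) 0 = true) :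
    m.testBit p = false := by
  rw [Nat.beq_eq, rf_low] at h
  rw [Nat.testBit_eq_decide_div_mod_eq, h]
  rfl

theorem rf_and {a b : Bool} (h : Bool.and a b = true) : a = true ∧ b = true := by
  cases a <;> cases b <;> simp_all

theorem rf_ble {a b : ℕ} (h : Nat.ble a b = true) : a ≤ b := Nat.le_of_ble_eq_true h

theorem rf_all (body : ℕ → Bool) (n : ℕ)
    (h : (Nat.rec true (fun i ih => Bool.and ih (body i)) n : Bool) = true) :
    ∀ i, i < n → body i = true := by
  induction n with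
  | zero => intro i hi; omega
  | succ n ih =>
    intro i hi
    obtain ⟨h1, h2⟩ := rf_and h
    rcases Nat.lt_succ_iff_lt_or_eq.mp hi with h3 | h3
    · exact ih h1 i h3
    · rw [h3]; exact h2

theorem rf_cnt_le (n i : ℕ) : cnt n i ≤ 15 := Nat.and_le_right

theorem rf_lam_le (t i x : ℕ) : lam t i x ≤ 15 := Nat.and_le_right

theorem rf_mkU (n r p : ℕ) :
    (mkU n r).testBit p = true ↔ ∃ i, i < r ∧ ∃ x, x < cnt n i ∧ p = 16 * i + x := by
  induction r with
  | zero =>
    constructor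
    · intro h
      have h0 : mkU n 0 = 0 := rfl
      rw [h0] at h
      simp at h
    · rintro ⟨i, hi, _⟩
      omega
  | succ r ih =>
    have hs : mkU n (r + 1) = Nat.lor (mkU n r)
      (Nat.shiftLeft (Nat.sub (Nat.shiftLeft 1 (cnt n r)) 1) (Nat.mul 16 r)) := rfl
    have h2 : Nat.sub (Nat.shiftLeft 1 (cnt n r)) 1 = 2 ^ (cnt n r) - 1 := by
      have h : Nat.shiftLeft 1 (cnt n r) = 2 ^ (cnt n r) := Nat.one_shiftLeft _
      rw [h]
      rfl
    have h3 : Nat.mul 16 r = 16 * r := rfl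
    rw [hs, rf_lor, rf_shl, h2, h3, Nat.testBit_two_pow_sub_one, Bool.or_eq_true, ih,
      Bool.and_eq_true, decide_eq_true_eq, decide_eq_true_eq]
    constructor
    · rintro (⟨i, hi, x, hx, hp⟩ | ⟨h4, h5⟩)
      · exact ⟨i, by omega, x, hx, hp⟩
      · exact ⟨r, by omega, p - 16 * r, h5, by omega⟩
    · rintro ⟨i, hi, x, hx, hp⟩
      rcases Nat.lt_succ_iff_lt_or_eq.mp hi with h4 | h4
      · exact Or.inl ⟨i, h4, x, hx, hp⟩
      · subst h4
        exact Or.inr ⟨by omega, by omega⟩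

theorem rf_mkF (n r p : ℕ) :
    (mkF n r).testBit p = true ↔ ∃ i, i < r ∧ p = 16 * i + cnt n i := by
  induction r with
  | zero =>
    constructor
    · intro h
      have h0 : mkF n 0 = 0 := rfl
      rw [h0] at h
      simp at h
    · rintro ⟨i, hi, _⟩
      omega
  | succ r ih =>
    have hs : mkF n (r + 1) = Nat.lor (mkF n r)
      (Nat.shiftLeft 1 (Nat.add (Nat.mul 16 r) (cnt n r))) := rfl
    have h3 : Nat.add (Nat.mul 16 r) (cnt n r) = 16 * r + cnt n r := rfl
    rw [hs, rf_lor, rf_one_shl, h3, Bool.or_eq_true, ih, decide_eq_true_eq]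
    constructor
    · rintro (⟨i, hi, hp⟩ | h4)
      · exact ⟨i, by omega, hp⟩
      · exact ⟨r, by omega, h4.symm⟩
    · rintro ⟨i, hi, hp⟩
      rcases Nat.lt_succ_iff_lt_or_eq.mp hi with h4 | h4
      · exact Or.inl ⟨i, h4, hp⟩
      · subst h4
        exact Or.inr hp.symm

theorem rf_img (t o r p : ℕ) :
    (img t o r).testBit p = true ↔ ∃ i, i < r ∧ p = 16 * sig t i + lam t i (labOf o i) := by
  induction r with
  | zero =>
    constructor
    · intro h
      have h0 : img t o 0 = 0 := rfl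
      rw [h0] at h
      simp at h
    · rintro ⟨i, hi, _⟩
      omega
  | succ r ih =>
    have hs : img t o (r + 1) = Nat.lor (img t o r)
      (Nat.shiftLeft 1 (Nat.add (Nat.mul 16 (sig t r)) (lam t r (labOf o r)))) := rfl
    have h3 : Nat.add (Nat.mul 16 (sig t r)) (lam t r (labOf o r)) =
      16 * sig t r + lam t r (labOf o r) := rfl
    rw [hs, rf_lor, rf_one_shl, h3, Bool.or_eq_true, ih, decide_eq_true_eq]
    constructor
    · rintro (⟨i, hi, hp⟩ | h4)
      · exact ⟨i, by omega, hp⟩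
      · exact ⟨r, by omega, h4.symm⟩
    · rintro ⟨i, hi, hp⟩
      rcases Nat.lt_succ_iff_lt_or_eq.mp hi with h4 | h4
      · exact Or.inl ⟨i, h4, hp⟩
      · subst h4
        exact Or.inr hp.symm

theorem rf_edgeAt {P : Par} (hP : P.WF) (K a p : ℕ) :
    (edgeAt P K a).testBit p = (K.testBit (P.wd * a + p) && decide (p < 16 * P.r)) := by
  have h : edgeAt P K a = Nat.land (Nat.shiftRight K (P.wd * a)) P.all := rfl
  rw [h, rf_land, rf_shr, hP.all]

/-- specification of `injOK` -/
theorem rf_injOK (N : ℕ) (g : ℕ → ℕ) (n : ℕ) : ∀ m, injOK N g n m = true →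
    (∀ x, x < n → g x < N ∧ m.testBit (g x) = false) ∧
      (∀ x y, x < n → y < n → g x = g y → x = y) := by
  induction n with
  | zero =>
    intro m _
    exact ⟨fun x hx => by omega, fun x y hx => by omega⟩
  | succ n ih =>
    intro m h
    have hs : injOK N g (n + 1) m = Bool.and
      (Bool.and (Nat.ble (Nat.succ (g n)) N) (Nat.beq (Nat.land (Nat.shiftRight m (g n)) 1) 0))
      (injOK N g n (Nat.lor m (Nat.shiftLeft 1 (g n)))) := rfl
    rw [hs] at h
    obtain ⟨h1, h2⟩ := rf_and h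
    obtain ⟨h3, h4⟩ := rf_and h1
    have h3' : g n < N := rf_ble h3
    have h4' := rf_bit0 h4
    obtain ⟨i1, i2⟩ := ih _ h2
    have hne : ∀ x, x < n → g x ≠ g n := by
      intro x hx hxe
      have := (i1 x hx).2
      rw [rf_lor, rf_one_shl, hxe] at this
      simp at this
    refine ⟨?_, ?_⟩
    · intro x hx
      rcases Nat.lt_succ_iff_lt_or_eq.mp hx with h5 | h5
      · refine ⟨(i1 x h5).1, ?_⟩
        have := (i1 x h5).2
        rw [rf_lor, Bool.or_eq_false_iff] at this
        exact this.1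
      · rw [h5]
        exact ⟨h3', h4'⟩
    · intro x y hx hy hxy
      rcases Nat.lt_succ_iff_lt_or_eq.mp hx with h5 | h5
      · rcases Nat.lt_succ_iff_lt_or_eq.mp hy with h6 | h6
        · exact i2 x y h5 h6 hxy
        · rw [h6] at hxy
          exact absurd hxy (hne x h5)
      · rcases Nat.lt_succ_iff_lt_or_eq.mp hy with h6 | h6
        · rw [h5] at hxy
          exact absurd hxy.symm (hne y h6)
        · rw [h5, h6]

/-- an injective self map of `[0, r)` is onto -/
theorem rf_surj (r : ℕ) (σ : ℕ → ℕ) (h1 : ∀ i, i < r → σ i < r)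
    (h2 : ∀ i j, i < r → j < r → σ i = σ j → i = j) : ∀ i, i < r → ∃ j, j < r ∧ σ j = i := by
  let f : Fin r → Fin r := fun i => ⟨σ i.1, h1 i.1 i.2⟩
  have hf : Function.Injective f := by
    intro a b hab
    have : σ a.1 = σ b.1 := congrArg Fin.val hab
    exact Fin.ext (h2 _ _ a.2 b.2 this)
  have hs : Function.Surjective f := Finite.injective_iff_surjective.mp hf
  intro i hi
  obtain ⟨j, hj⟩ := hs ⟨i, hi⟩
  exact ⟨j.1, j.2, congrArg Fin.val hj⟩

/-! ### permutation of the parts -/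

theorem rf_meets {V : Type u} (r : ℕ) (σ : ℕ → ℕ) (hs : ∀ i, i < r → ∃ j, j < r ∧ σ j = i)
    {e f e' f' : ℕ → V} (he : ∀ i, i < r → e' i = e (σ i)) (hf : ∀ i, i < r → f' i = f (σ i))
    (h : Meets r e f) : Meets r e' f' := by
  obtain ⟨i, hi, hef⟩ := h
  obtain ⟨j, hj, rfl⟩ := hs i hi
  exact ⟨j, hj, by rw [he j hj, hf j hj, hef]⟩

theorem rf_bad {V : Type u} {P : Par} {E : (ℕ → V) → Prop} (hB : Bad P E) (σ : ℕ → ℕ)
    (h1 : ∀ i, i < P.r → σ i < P.r) (hs : ∀ i, i < P.r → ∃ j, j < P.r ∧ σ j = i) :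
    Bad P (fun e' => ∃ e, E e ∧ ∀ i, i < P.r → e' i = e (σ i)) := by
  refine ⟨?_, ?_, ?_⟩
  · rintro h2 e' f' ⟨e, he, hee⟩ ⟨f, hf, hff⟩
    exact rf_meets P.r σ hs hee hff (hB.nomatch1 h2 e f he hf)
  · rintro h2 e' f' g' ⟨e, he, hee⟩ ⟨f, hf, hff⟩ ⟨g, hg, hgg⟩
    rcases hB.nomatch2 h2 e f g he hf hg with h | h | h
    · exact Or.inl (rf_meets P.r σ hs hee hff h)
    · exact Or.inr (Or.inl (rf_meets P.r σ hs hee hgg h))
    · exact Or.inr (Or.inr (rf_meets P.r σ hs hff hgg h))
  · intro C hC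
    obtain ⟨e, he, hav⟩ := hB.nocover (C.map (fun q => (σ q.1, q.2))) (by simpa using hC)
    refine ⟨fun i => e (σ i), ⟨e, he, fun i _ => rfl⟩, ?_⟩
    intro i hi hmem
    exact hav (σ i) (h1 i hi) (List.mem_map.mpr ⟨(i, e (σ i)), hmem, rfl⟩)

/-! ### the main lemma -/

theorem refOK_sound {P : Par} (hP : P.WF) {e K k U Fm t : ℕ}
    (h : refOK P e K k U t = true) (hg : Good.{u} P e) : Refuted.{u} P K k U Fm := by
  intro V E hB φ c hE
  obtain ⟨hσ, h⟩ := rf_and h
  obtain ⟨hparts, h⟩ := rf_and h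
  obtain ⟨hused, hedges⟩ := rf_and h
  obtain ⟨σ1, σ2⟩ := rf_injOK P.r (fun i => sig t i) P.r 0 hσ
  have σlt : ∀ i, i < P.r → sig t i < P.r := fun i hi => (σ1 i hi).1
  have σsurj := rf_surj P.r (fun i => sig t i) σlt σ2
  have hparts' := rf_all (fun i => Bool.and (Nat.ble (cnt (entN e) i) 14)
      (injOK 16 (fun x => lam t i x) (cnt (entN e) i) 0)) P.r hparts
  have hc14 : ∀ i, i < P.r → cnt (entN e) i ≤ 14 := fun i hi => rf_ble (rf_and (hparts' i hi)).1
  have hlinj : ∀ i, i < P.r → ∀ x y, x < cnt (entN e) i → y < cnt (entN e) i →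
      lam t i x = lam t i y → x = y := fun i hi =>
    (rf_injOK 16 (fun x => lam t i x) (cnt (entN e) i) 0 (rf_and (hparts' i hi)).2).2
  have hused' := rf_all (fun i => usedOK U t i (cnt (entN e) i)) P.r hused
  have hlt : ∀ i, i < P.r → ∀ x, x < cnt (entN e) i → lam t i x < c (sig t i) := by
    intro i hi x hx
    have h1 := rf_all (fun x => Nat.beq (Nat.land (Nat.shiftRight U
      (Nat.add (Nat.mul 16 (sig t i)) (lam t i x))) 1) 1) (cnt (entN e) i) (hused' i hi) x hx
    have h2 : U.testBit (16 * sig t i + lam t i x) = true := rf_bit1 h1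
    have h3 := rf_lam_le t i x
    exact (hE.used (sig t i) (σlt i hi) (lam t i x) (by omega)).mp h2
  have hedges' := rf_all (fun j => Bool.and (imgOK (entN e) (edgeAt P (entE e) j) P.r)
      (Bool.and (Nat.ble (Nat.succ (eidx P t j)) k)
        (Nat.beq (img t (edgeAt P (entE e) j) P.r) (edgeAt P K (eidx P t j))))) (entK e) hedges
  refine hg V (fun e' => ∃ e, E e ∧ ∀ i, i < P.r → e' i = e (sig t i))
    (rf_bad hB (fun i => sig t i) σlt σsurj) (fun i x => φ (sig t i) (lam t i x))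
    (fun i => cnt (entN e) i) ⟨hc14, ?_, ?_, ?_, ?_⟩
  · intro i hi x hx
    rw [rf_mkU]
    constructor
    · rintro ⟨i', hi', x', hx', hp⟩
      have := rf_cnt_le (entN e) i'
      have h1 : i = i' := by omega
      subst h1
      omega
    · intro h1
      exact ⟨i, hi, x, h1, rfl⟩
  · intro i hi x hx
    rw [rf_mkF]
    constructor
    · rintro ⟨i', hi', hp⟩
      have := rf_cnt_le (entN e) i'
      have h1 : i = i' := by omega
      subst h1
      omega
    · intro h1
      exact ⟨i, hi, by rw [h1]⟩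
  · intro i hi x y hx hy hxy
    exact hlinj i hi x y hx hy
      (hE.inj (sig t i) (σlt i hi) _ _ (hlt i hi x hx) (hlt i hi y hy) hxy)
  · intro j hj
    obtain ⟨hi1, h⟩ := rf_and (hedges' j hj)
    obtain ⟨hi2, hi3⟩ := rf_and h
    have hjk : eidx P t j < k := rf_ble hi2
    have himg : img t (edgeAt P (entE e) j) P.r = edgeAt P K (eidx P t j) := by
      rwa [Nat.beq_eq] at hi3
    obtain ⟨e0, he0, hed⟩ := hE.edge (eidx P t j) hjk
    refine ⟨fun i => e0 (sig t i), ⟨e0, he0, fun i _ => rfl⟩, ?_⟩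
    intro i hi
    have h1 := rf_all (fun i => Bool.and
      (Bool.not (Nat.beq (Nat.land (Nat.shiftRight (edgeAt P (entE e) j) (Nat.mul 16 i)) 65535) 0))
      (Nat.ble (Nat.succ (labOf (edgeAt P (entE e) j) i)) (cnt (entN e) i))) P.r hi1 i hi
    obtain ⟨h2, h3⟩ := rf_and h1
    have h3' : labOf (edgeAt P (entE e) j) i < cnt (entN e) i := rf_ble h3
    have h2' : Nat.land (Nat.shiftRight (edgeAt P (entE e) j) (Nat.mul 16 i)) 65535 ≠ 0 := by
      intro h0
      rw [h0] at h2
      simp at h2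
    have h4 := Nat.testBit_log2 h2'
    have h5 : (Nat.land (Nat.shiftRight (edgeAt P (entE e) j) (Nat.mul 16 i)) 65535).testBit
        (labOf (edgeAt P (entE e) j) i) = true := h4
    rw [rf_land, rf_shr, Bool.and_eq_true] at h5
    have h6 : (edgeAt P (entE e) j).testBit (16 * i + labOf (edgeAt P (entE e) j) i) = true := h5.1
    rw [rf_edgeAt hP, Bool.and_eq_true] at h6
    refine ⟨labOf (edgeAt P (entE e) j) i, h3', h6.1, ?_⟩
    obtain ⟨y, hy, hyK, hye⟩ := hed (sig t i) (σlt i hi)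
    have hy14 := hE.c14 (sig t i) (σlt i hi)
    have h7 : (edgeAt P K (eidx P t j)).testBit (16 * sig t i + y) = true := by
      rw [rf_edgeAt hP, Bool.and_eq_true, decide_eq_true_eq]
      have := σlt i hi
      exact ⟨hyK, by omega⟩
    rw [← himg, rf_img] at h7
    obtain ⟨i', hi', hp⟩ := h7
    have h8 := rf_lam_le t i' (labOf (edgeAt P (entE e) j) i')
    have h9 : sig t i = sig t i' := by omega
    have h10 : i = i' := σ2 i i' hi hi' h9
    subst h10
    have h11 : y = lam t i (labOf (edgeAt P (entE e) j) i) := by omega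
    show e0 (sig t i) = φ (sig t i) (lam t i (labOf (edgeAt P (entE e) j) i))
    rw [hye, h11]

end Vale.Agent.P045
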