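import Vale.Agent.P045.Bits
import Vale.Agent.P045.Ref

/-!
# P045: soundness of the extension tree machine
-/

namespace Vale.Agent.P045

universe u

section lab

variable {V : Type u}

open Classical in
/-- the label of the vertex of `f` in part `i` (`c i` if it has no label) -/
noncomputable def lab (φ : ℕ → ℕ → V) (c : ℕ → ℕ) (f : ℕ → V) (i : ℕ) : ℕ :=
  if h : ∃ x, x < c i ∧ f i = φ i x then Classical.choose h else c i

theorem lab_le (φ : ℕ → ℕ → V) (c : ℕ → ℕ) (f : ℕ → V) (i : ℕ) : lab φ c f i ≤ c i := by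
  unfold lab
  split_ifs with h
  · exact (Classical.choose_spec h).1.le
  · exact le_rfl

theorem lab_spec {φ : ℕ → ℕ → V} {c : ℕ → ℕ} {f : ℕ → V} {i : ℕ} (h : lab φ c f i < c i) :
    f i = φ i (lab φ c f i) := by
  unfold lab at h ⊢
  split_ifs with h1
  · exact (Classical.choose_spec h1).2
  · rw [dif_neg h1] at h
    exact absurd h (lt_irrefl _)

theorem lab_new {φ : ℕ → ℕ → V} {c : ℕ → ℕ} {f : ℕ → V} {i : ℕ} (h : lab φ c f i = c i) :
    ∀ x, x < c i → f i ≠ φ i x := by
  intro x hx he
  unfold lab at h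
  rw [dif_pos ⟨x, hx, he⟩] at h
  have := (Classical.choose_spec (⟨x, hx, he⟩ : ∃ x, x < c i ∧ f i = φ i x)).1
  omega

theorem lab_eq {φ : ℕ → ℕ → V} {c : ℕ → ℕ} {f : ℕ → V} {i x : ℕ}
    (hinj : ∀ x y, x < c i → y < c i → φ i x = φ i y → x = y) (hx : x < c i) (he : f i = φ i x) :
    lab φ c f i = x := by
  have h1 : lab φ c f i < c i := by
    rcases (lab_le φ c f i).lt_or_eq with h | h
    · exact h
    · exact absurd he (lab_new h x hx)
  exact hinj _ _ h1 hx ((lab_spec h1).symm.trans he)

end lab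

/-- the pending edge `f` uses only positions of `A` -/
def Fits {V : Type u} (P : Par) (φ : ℕ → ℕ → V) (c : ℕ → ℕ) (A : ℕ) (f : ℕ → V) : Prop :=
  ∀ i, i < P.r → A.testBit (16 * i + lab φ c f i) = true

/-- the decided parts of `A` contain at most one position -/
def Sing (P : Par) (A Sg : ℕ) : Prop :=
  ∀ i, i < P.r → Sg.testBit (16 * i) = true → ∀ x y, x < 16 → y < 16 →
    A.testBit (16 * i + x) = true → A.testBit (16 * i + y) = true → x = y

/-! ### the loop over the options -/

theorem tb_sel (A M B q : ℕ) : (Nat.lor (Nat.xor (Nat.lor A M) M) B).testBit q =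
    ((A.testBit q && !M.testBit q) || B.testBit q) := by
  rw [tb_lor, tb_xor, tb_lor]
  cases A.testBit q <;> cases M.testBit q <;> rfl

theorem opts_zero {ch : ℕ → ℕ → ℕ → ℕ} (hz : ∀ A Sg, ch A Sg 0 = 0) (Sg : ℕ) :
    ∀ n m A, opts ch Sg n m A 0 = 0 := by
  intro n
  induction n with
  | zero =>
    intro m A
    show Bool.rec 0 0 (Nat.beq m 0) = 0
    cases Nat.beq m 0 <;> rfl
  | succ n ih =>
    intro m A
    show Bool.rec (opts ch Sg n _ _ (ch _ _ 0)) 0 (Nat.beq m 0) = 0
    cases Nat.beq m 0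
    · show opts ch Sg n _ _ (ch _ _ 0) = 0
      rw [hz]
      exact ih _ _
    · rfl

theorem opts_sound {V : Type u} {P : Par} (hP : P.WF) {φ : ℕ → ℕ → V} {c : ℕ → ℕ} {f : ℕ → V}
    (hc : ∀ i, i < P.r → c i ≤ 14)
    {ch : ℕ → ℕ → ℕ → ℕ} (hz : ∀ A Sg, ch A Sg 0 = 0)
    (hch : ∀ A Sg s, ch A Sg s ≠ 0 → Fits P φ c A f → Sing P A Sg → False) (Sg : ℕ) :
    ∀ n m A s, opts ch Sg n m A s ≠ 0 → Fits P φ c A f → Sing P A Sg →
      (∀ q, m.testBit q = true → A.testBit q = true) →
      (∃ i, i < P.r ∧ m.testBit (16 * i + lab φ c f i) = true) → False := by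
  intro n
  induction n with
  | zero =>
    intro m A s h _ _ _ hex
    obtain ⟨i, _, hb⟩ := hex
    have hm : m ≠ 0 := ne_zero_of_tb hb
    have h' : (Bool.rec 0 s (Nat.beq m 0) : ℕ) ≠ 0 := h
    cases hq : Nat.beq m 0 with
    | true => exact hm (beq_eq hq)
    | false =>
      rw [hq] at h'
      exact h' rfl
  | succ n ih =>
    intro m A s h hfit hsing hsub hex
    obtain ⟨i, hi, hb⟩ := hex
    have hm : m ≠ 0 := ne_zero_of_tb hb
    have hq : Nat.beq m 0 = false := by
      cases hq : Nat.beq m 0 with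
      | true => exact absurd (beq_eq hq) hm
      | false => rfl
    have h' : (Bool.rec
        (opts ch Sg n (Nat.xor m (Nat.shiftLeft 1 (Nat.log2 m)))
          (Nat.xor A (Nat.shiftLeft 1 (Nat.log2 m)))
          (ch (Nat.lor (Nat.xor (Nat.lor A (partMask (Nat.log2 m))) (partMask (Nat.log2 m)))
              (Nat.shiftLeft 1 (Nat.log2 m)))
            (Nat.lor Sg (partMask (Nat.log2 m))) s))
        s (Nat.beq m 0) : ℕ) ≠ 0 := h
    rw [hq] at h'
    have h2 : opts ch Sg n (Nat.xor m (Nat.shiftLeft 1 (Nat.log2 m)))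
          (Nat.xor A (Nat.shiftLeft 1 (Nat.log2 m)))
          (ch (Nat.lor (Nat.xor (Nat.lor A (partMask (Nat.log2 m))) (partMask (Nat.log2 m)))
              (Nat.shiftLeft 1 (Nat.log2 m)))
            (Nat.lor Sg (partMask (Nat.log2 m))) s) ≠ 0 := h'
    have hp : m.testBit (Nat.log2 m) = true := tb_log2 hm
    generalize Nat.log2 m = p at h2 hp
    have hs1 : ch (Nat.lor (Nat.xor (Nat.lor A (partMask p)) (partMask p)) (Nat.shiftLeft 1 p))
        (Nat.lor Sg (partMask p)) s ≠ 0 := by
      intro h0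
      rw [h0] at h2
      exact h2 (opts_zero hz Sg n _ _)
    have hl : ∀ i1, i1 < P.r → lab φ c f i1 < 16 := by
      intro i1 hi1
      have h3 := lab_le φ c f i1
      have h4 := hc i1 hi1
      omega
    by_cases hcase : ∃ i0, i0 < P.r ∧ p = 16 * i0 + lab φ c f i0
    · obtain ⟨i0, hi0, rfl⟩ := hcase
      have hx0 := hl i0 hi0
      have hi8 : i0 < 8 := lt_of_lt_of_le hi0 hP.r8
      refine hch _ _ _ hs1 ?_ ?_
      · intro i1 hi1
        rw [tb_sel, tb_partMask hi8 hx0, tb_one, hfit i1 hi1]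
        have h5 := hl i1 hi1
        by_cases e : i1 = i0
        · subst e
          simp
        · have h6 : ¬ (16 * i0 ≤ 16 * i1 + lab φ c f i1 ∧
              16 * i1 + lab φ c f i1 - 16 * i0 < 16) := by omega
          by_cases h7 : 16 * i0 ≤ 16 * i1 + lab φ c f i1
          · have h8 : ¬ (16 * i1 + lab φ c f i1 - 16 * i0 < 16) := fun h9 => h6 ⟨h7, h9⟩
            simp [h8]
          · simp [h7]
      · intro i1 hi1 hsg x y hx hy hbx hby
        rw [tb_sel, tb_partMask hi8 hx0, tb_one] at hbx hby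
        by_cases e : i1 = i0
        · subst e
          have h7 : 16 * i1 ≤ 16 * i1 + x ∧ 16 * i1 + x - 16 * i1 < 16 := by omega
          have h8 : 16 * i1 ≤ 16 * i1 + y ∧ 16 * i1 + y - 16 * i1 < 16 := by omega
          simp only [h7.1, h7.2, decide_true, Bool.and_true, Bool.not_true, Bool.and_false,
            Bool.false_or, decide_eq_true_eq] at hbx
          simp only [h8.1, h8.2, decide_true, Bool.and_true, Bool.not_true, Bool.and_false,
            Bool.false_or, decide_eq_true_eq] at hby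
          omega
        · rw [tb_lor, tb_partMask hi8 hx0] at hsg
          have h9 : ¬ (16 * i0 ≤ 16 * i1 ∧ 16 * i1 - 16 * i0 < 16) := by omega
          have hsg' : Sg.testBit (16 * i1) = true := by
            rcases Bool.or_eq_true _ _ ▸ hsg with h | h
            · exact h
            · rw [Bool.and_eq_true, decide_eq_true_eq, decide_eq_true_eq] at h
              exact absurd h h9
          have hne : ∀ z, z < 16 → 16 * i1 + z ≠ 16 * i0 + lab φ c f i0 := by
            intro z hz
            omega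
          have hA : ∀ z, z < 16 → ((A.testBit (16 * i1 + z) &&
              !(decide (16 * i0 ≤ 16 * i1 + z) && decide (16 * i1 + z - 16 * i0 < 16))) ||
              decide (16 * i1 + z = 16 * i0 + lab φ c f i0)) = true →
              A.testBit (16 * i1 + z) = true := by
            intro z hz h
            rw [decide_eq_false (hne z hz), Bool.or_false, Bool.and_eq_true] at h
            exact h.1
          exact hsing i1 hi1 hsg' x y hx hy (hA x hx hbx) (hA y hy hby)
    · have hne : ∀ i1, i1 < P.r → 16 * i1 + lab φ c f i1 ≠ p := by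
        intro i1 hi1 he
        exact hcase ⟨i1, hi1, he.symm⟩
      have hAp : A.testBit p = true := hsub p hp
      refine ih _ _ _ h2 ?_ ?_ ?_ ?_
      · intro i1 hi1
        rw [tb_xor, tb_one, hfit i1 hi1, decide_eq_false (hne i1 hi1)]
        rfl
      · intro i1 hi1 hsg x y hx hy hbx hby
        have hA : ∀ q, (Nat.xor A (Nat.shiftLeft 1 p)).testBit q = true →
            A.testBit q = true := by
          intro q h
          rw [tb_xor, tb_one] at h
          by_cases e : q = p
          · rw [e]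
            exact hAp
          · rw [decide_eq_false e, Bool.xor_false] at h
            exact h
        exact hsing i1 hi1 hsg x y hx hy (hA _ hbx) (hA _ hby)
      · intro q h
        rw [tb_xor, tb_one] at h ⊢
        by_cases e : q = p
        · rw [e, hp] at h
          simp at h
        · rw [decide_eq_false e, Bool.xor_false] at h ⊢
          exact hsub q h
      · refine ⟨i, hi, ?_⟩
        rw [tb_xor, tb_one, hb, decide_eq_false (hne i hi)]
        rfl

/-! ### the splits -/

/-- what the machine proves for a pending edge -/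
def Claim (P : Par) (K k U Fm A Sg : ℕ) : Prop :=
  ∀ (V : Type u) (E : (ℕ → V) → Prop), Bad P E → ∀ φ c, Emb P E K k U Fm φ c →
    ∀ f, E f → Fits P φ c A f → Sing P A Sg → False

section sem

variable {V : Type u} {P : Par} {E : (ℕ → V) → Prop} {K k U Fm : ℕ} {φ : ℕ → ℕ → V} {c : ℕ → ℕ}

theorem edge_bit (hP : P.WF) (hE : Emb P E K k U Fm φ c) {a : ℕ} (ha : a < k) :
    ∃ e, E e ∧ ∀ i, i < P.r →
      ∃ x, x < c i ∧ (edgeAt P K a).testBit (16 * i + x) = true ∧ e i = φ i x := by
  obtain ⟨e, he, h⟩ := hE.edge a ha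
  refine ⟨e, he, fun i hi => ?_⟩
  obtain ⟨x, hx, hb, hv⟩ := h i hi
  refine ⟨x, hx, ?_, hv⟩
  rw [tb_edgeAt hP, hb]
  have := hE.c14 i hi
  have h2 : 16 * i + x < 16 * P.r := by omega
  simp [h2]

theorem meets_bit (hE : Emb P E K k U Fm φ c) {O : ℕ} {e f : ℕ → V}
    (he : ∀ i, i < P.r → ∃ x, x < c i ∧ O.testBit (16 * i + x) = true ∧ e i = φ i x)
    (hm : Meets P.r e f) : ∃ i, i < P.r ∧ O.testBit (16 * i + lab φ c f i) = true := by
  obtain ⟨i, hi, hef⟩ := hm
  obtain ⟨x, hx, hb, hv⟩ := he i hi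
  refine ⟨i, hi, ?_⟩
  rw [lab_eq (hE.inj i hi) hx (hef.symm.trans hv)]
  exact hb

theorem not_meets (hE : Emb P E K k U Fm φ c) {O O' : ℕ} {e e' : ℕ → V}
    (he : ∀ i, i < P.r → ∃ x, x < c i ∧ O.testBit (16 * i + x) = true ∧ e i = φ i x)
    (he' : ∀ i, i < P.r → ∃ x, x < c i ∧ O'.testBit (16 * i + x) = true ∧ e' i = φ i x)
    (h0 : Nat.land O O' = 0) : ¬ Meets P.r e e' := by
  rintro ⟨i, hi, hee⟩
  obtain ⟨x, hx, hb, hv⟩ := he i hi
  obtain ⟨y, hy, hb', hv'⟩ := he' i hi
  have hxy : x = y := hE.inj i hi x y hx hy (hv.symm.trans (hee.trans hv'))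
  subst hxy
  have h1 : (Nat.land O O').testBit (16 * i + x) = true := by
    rw [tb_land, hb, hb']
    rfl
  rw [h0] at h1
  simp at h1

theorem split_ex (hP : P.WF) (hB : Bad P E) (hE : Emb P E K k U Fm φ c) {f : ℕ → V} (hf : E f)
    {A : ℕ} (hfit : Fits P φ c A f) {a b : ℕ} (hok : splitOK P K k a b = true) :
    ∃ i, i < P.r ∧ (Nat.land (splitMask P K a b) A).testBit (16 * i + lab φ c f i) = true := by
  unfold splitOK at hok
  unfold splitMask
  cases htwo : P.two with
  | false =>
    rw [htwo] at hok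
    obtain ⟨e, he, hbits⟩ := edge_bit hP hE (ble_lt hok)
    obtain ⟨i, hi, hb⟩ := meets_bit hE hbits (hB.nomatch1 htwo e f he hf)
    refine ⟨i, hi, ?_⟩
    rw [tb_land, hfit i hi]
    show ((edgeAt P K a).testBit _ && true) = true
    rw [hb]
    rfl
  | true =>
    rw [htwo] at hok
    obtain ⟨h1, h0⟩ := band hok
    obtain ⟨ha, hb⟩ := band h1
    obtain ⟨e, he, hbits⟩ := edge_bit hP hE (ble_lt ha)
    obtain ⟨e', he', hbits'⟩ := edge_bit hP hE (ble_lt hb)
    have hnm := not_meets hE hbits hbits' (beq_eq h0)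
    rcases hB.nomatch2 htwo e e' f he he' hf with h | h | h
    · exact absurd h hnm
    · obtain ⟨i, hi, hb⟩ := meets_bit hE hbits h
      refine ⟨i, hi, ?_⟩
      rw [tb_land, hfit i hi]
      show ((Nat.lor (edgeAt P K a) (edgeAt P K b)).testBit _ && true) = true
      rw [tb_lor, hb]
      rfl
    · obtain ⟨i, hi, hb⟩ := meets_bit hE hbits' h
      refine ⟨i, hi, ?_⟩
      rw [tb_land, hfit i hi]
      show ((Nat.lor (edgeAt P K a) (edgeAt P K b)).testBit _ && true) = true
      rw [tb_lor, hb, Bool.or_true]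
      rfl

theorem part_ex (hE : Emb P E K k U Fm φ c) {f : ℕ → V}
    {A : ℕ} (hfit : Fits P φ c A f) {i : ℕ} (hi : i < P.r) :
    ∃ i', i' < P.r ∧ (Nat.land (Nat.shiftLeft 65535 (Nat.mul 16 i)) A).testBit
      (16 * i' + lab φ c f i') = true := by
  refine ⟨i, hi, ?_⟩
  rw [tb_land, hfit i hi, tb_block]
  have h1 := lab_le φ c f i
  have h2 := hE.c14 i hi
  have h3 : Nat.mul 16 i ≤ 16 * i + lab φ c f i := by
    show 16 * i ≤ _
    omega
  have h4 : 16 * i + lab φ c f i - Nat.mul 16 i < 16 := by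
    show 16 * i + lab φ c f i - 16 * i < 16
    omega
  rw [decide_eq_true h3, decide_eq_true h4]
  rfl

/-! ### commit -/

theorem bool_of_iff {b : Bool} {p : Prop} (h : b = true ↔ p) (hp : ¬ p) : b = false := by
  cases b
  · rfl
  · exact absurd (h.1 rfl) hp

theorem commit_emb (hP : P.WF) (hE : Emb P E K k U Fm φ c) {f : ℕ → V} (hf : E f)
    {A : ℕ} (hfit : Fits P φ c A f) (hsing : Sing P A P.all)
    (hov : Nat.land (Nat.shiftLeft (Nat.land A Fm) 1) P.top = 0) :
    ∃ φ1 c1, Emb P E (Nat.lor K (Nat.shiftLeft A (Nat.mul P.wd k))) (Nat.succ k)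
      (Nat.lor U (Nat.land A Fm))
      (Nat.lor (Nat.xor Fm (Nat.land A Fm)) (Nat.shiftLeft (Nat.land A Fm) 1)) φ1 c1 := by
  classical
  have hl : ∀ i, i < P.r → lab φ c f i < 16 := by
    intro i hi
    have h3 := lab_le φ c f i
    have h4 := hE.c14 i hi
    omega
  -- bits of `A land Fm`
  have hb : ∀ i, i < P.r → ∀ x, x < 16 →
      ((Nat.land A Fm).testBit (16 * i + x) = true ↔ (x = c i ∧ lab φ c f i = c i)) := by
    intro i hi x hx
    rw [tb_land, Bool.and_eq_true, hE.fresh i hi x hx]
    constructor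
    · rintro ⟨h1, rfl⟩
      refine ⟨rfl, ?_⟩
      have hall : P.all.testBit (16 * i) = true := by
        rw [hP.all]
        have : 16 * i < 16 * P.r := by omega
        simp [this]
      exact hsing i hi hall _ _ (hl i hi) hx (hfit i hi) h1
    · rintro ⟨rfl, h2⟩
      refine ⟨?_, rfl⟩
      have := hfit i hi
      rw [h2] at this
      exact this
  have hs : ∀ i, i < P.r → ∀ x, x < 16 →
      ((Nat.shiftLeft (Nat.land A Fm) 1).testBit (16 * i + x) = true ↔
        (x = c i + 1 ∧ lab φ c f i = c i)) := by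
    intro i hi x hx
    rw [tb_shl, Bool.and_eq_true, decide_eq_true_eq]
    rcases Nat.eq_zero_or_pos x with rfl | hx0
    · constructor
      · rintro ⟨h1, h2⟩
        have hi0 : 1 ≤ i := by omega
        have e : 16 * i + 0 - 1 = 16 * (i - 1) + 15 := by omega
        rw [e] at h2
        have h3 := ((hb (i - 1) (by omega) 15 (by omega)).1 h2).1
        have h4 := hE.c14 (i - 1) (by omega)
        omega
      · rintro ⟨h1, _⟩
        omega
    · have e : 16 * i + x - 1 = 16 * i + (x - 1) := by omega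
      rw [e, hb i hi (x - 1) (by omega)]
      constructor
      · rintro ⟨_, h2, h3⟩
        exact ⟨by omega, h3⟩
      · rintro ⟨h2, h3⟩
        exact ⟨by omega, by omega, h3⟩
  refine ⟨fun i x => if x < c i then φ i x else f i,
    fun i => if lab φ c f i = c i then c i + 1 else c i, ?_, ?_, ?_, ?_, ?_⟩
  · -- c14
    intro i hi
    have h14 := hE.c14 i hi
    show (if lab φ c f i = c i then c i + 1 else c i) ≤ 14
    split_ifs with h
    · by_contra hcon
      have e : c i = 14 := by omega
      have h1 : (Nat.shiftLeft (Nat.land A Fm) 1).testBit (16 * i + 15) = true :=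
        (hs i hi 15 (by omega)).2 ⟨by omega, h⟩
      have h2 : (Nat.land (Nat.shiftLeft (Nat.land A Fm) 1) P.top).testBit (16 * i + 15) = true := by
        rw [tb_land, h1, hP.top i hi]
        rfl
      rw [hov] at h2
      simp at h2
    · exact h14
  · -- used
    intro i hi x hx
    show _ ↔ x < (if lab φ c f i = c i then c i + 1 else c i)
    rw [tb_lor, Bool.or_eq_true, hE.used i hi x hx, hb i hi x hx]
    split_ifs with h
    · constructor
      · rintro (h1 | ⟨h1, _⟩) <;> omega
      · intro h1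
        rcases Nat.lt_succ_iff_lt_or_eq.1 h1 with h2 | h2
        · exact Or.inl h2
        · exact Or.inr ⟨h2, h⟩
    · constructor
      · rintro (h1 | ⟨_, h1⟩)
        · exact h1
        · exact absurd h1 h
      · exact Or.inl
  · -- fresh
    intro i hi x hx
    show _ ↔ x = (if lab φ c f i = c i then c i + 1 else c i)
    rw [tb_lor, Bool.or_eq_true, hs i hi x hx, tb_xor]
    split_ifs with h
    · constructor
      · rintro (h1 | ⟨h1, _⟩)
        · by_cases e : x = c i
          · rw [(hE.fresh i hi x hx).2 e, (hb i hi x hx).2 ⟨e, h⟩] at h1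
            simp at h1
          · rw [bool_of_iff (hE.fresh i hi x hx) e,
              bool_of_iff (hb i hi x hx) (fun h2 => e h2.1)] at h1
            simp at h1
        · exact h1
      · intro h1
        exact Or.inr ⟨h1, h⟩
    · rw [bool_of_iff (hb i hi x hx) (fun h2 => h h2.2), Bool.xor_false, hE.fresh i hi x hx]
      constructor
      · rintro (h1 | ⟨_, h1⟩)
        · exact h1
        · exact absurd h1 h
      · exact Or.inl
  · -- inj
    intro i hi x y hx hy hxy
    have hx' : x < (if lab φ c f i = c i then c i + 1 else c i) := hx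
    have hy' : y < (if lab φ c f i = c i then c i + 1 else c i) := hy
    have hxy' : (if x < c i then φ i x else f i) = (if y < c i then φ i y else f i) := hxy
    by_cases h : lab φ c f i = c i
    · rw [if_pos h] at hx' hy'
      by_cases h1 : x < c i
      · by_cases h2 : y < c i
        · rw [if_pos h1, if_pos h2] at hxy'
          exact hE.inj i hi x y h1 h2 hxy'
        · rw [if_pos h1, if_neg h2] at hxy'
          exact absurd hxy'.symm (lab_new h x h1)
      · by_cases h2 : y < c i
        · rw [if_neg h1, if_pos h2] at hxy'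
          exact absurd hxy' (lab_new h y h2)
        · omega
    · rw [if_neg h] at hx' hy'
      rw [if_pos hx', if_pos hy'] at hxy'
      exact hE.inj i hi x y hx' hy' hxy'
  · -- edges
    intro j hj
    rcases Nat.lt_succ_iff_lt_or_eq.1 hj with hj | rfl
    · obtain ⟨e, he, h⟩ := hE.edge j hj
      refine ⟨e, he, fun i hi => ?_⟩
      obtain ⟨x, hx, hbit, hv⟩ := h i hi
      refine ⟨x, ?_, ?_, ?_⟩
      · show x < (if lab φ c f i = c i then c i + 1 else c i)
        split_ifs <;> omega
      · rw [tb_lor, hbit]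
        rfl
      · show e i = (if x < c i then φ i x else f i)
        rw [if_pos hx]
        exact hv
    · refine ⟨f, hf, fun i hi => ⟨lab φ c f i, ?_, ?_, ?_⟩⟩
      · show lab φ c f i < (if lab φ c f i = c i then c i + 1 else c i)
        have := lab_le φ c f i
        split_ifs with h <;> omega
      · rw [tb_lor, tb_shl]
        have h1 : Nat.mul P.wd j ≤ P.wd * j + (16 * i + lab φ c f i) := by
          show P.wd * j ≤ _
          omega
        have h2 : P.wd * j + (16 * i + lab φ c f i) - Nat.mul P.wd j = 16 * i + lab φ c f i := by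
          show P.wd * j + (16 * i + lab φ c f i) - P.wd * j = _
          omega
        rw [decide_eq_true h1, h2, hfit i hi, Bool.and_true, Bool.or_true]
      · show f i = (if lab φ c f i < c i then φ i (lab φ c f i) else f i)
        split_ifs with h
        · exact lab_spec h
        · rfl

end sem

/-! ### covers -/

/-- the positions read by `posMask` -/
def posList : ℕ → ℕ → List ℕ
  | 0, _ => []
  | n + 1, s => Nat.land s 127 :: posList n (Nat.shiftRight s 7)

theorem posList_length (n : ℕ) : ∀ s, (posList n s).length = n := by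
  induction n with
  | zero => intro s; rfl
  | succ n ih => intro s; simp [posList, ih]

theorem posMask_tb (n : ℕ) : ∀ s q, (posMask n s).testBit q = true → q ∈ posList n s := by
  induction n with
  | zero =>
    intro s q h
    have h' : (0 : ℕ).testBit q = true := h
    simp at h'
  | succ n ih =>
    intro s q h
    have h' : (Nat.lor (Nat.shiftLeft 1 (Nat.land s 127))
      (posMask n (Nat.shiftRight s 7))).testBit q = true := h
    rw [tb_lor, Bool.or_eq_true, tb_one, decide_eq_true_eq] at h'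
    rcases h' with h1 | h1
    · rw [h1]
      exact List.mem_cons_self
    · exact List.mem_cons_of_mem _ (ih _ _ h1)

theorem avoid_sound {P : Par} {ih : ℕ → ℕ → ℕ → ℕ → ℕ → ℕ → ℕ → ℕ}
    (hih : ∀ K k U Fm A Sg s, ih K k U Fm A Sg s ≠ 0 → Claim.{u} P K k U Fm A Sg)
    {K k U Fm s : ℕ} (h : avoid P ih K k U Fm s ≠ 0) : Refuted.{u} P K k U Fm := by
  intro V E hB φ c hE
  obtain ⟨f, hf, hav⟩ := hB.nocover
    ((posList P.c s).map (fun p => (p / 16, φ (p / 16) (p % 16))))
    (by rw [List.length_map, posList_length])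
  refine hih _ _ _ _ _ _ _ h V E hB φ c hE f hf ?_ ?_
  · intro i hi
    have h14 := hE.c14 i hi
    rw [tb_xor, tb_lor, tb_land]
    rcases (lab_le φ c f i).lt_or_eq with hlt | heq
    · have hU : U.testBit (16 * i + lab φ c f i) = true :=
        (hE.used i hi _ (by omega)).2 hlt
      have hC : (posMask P.c s).testBit (16 * i + lab φ c f i) = false := by
        by_contra hcon
        have hmem := posMask_tb _ _ _ (Bool.eq_true_of_not_eq_false hcon)
        apply hav i hi
        rw [List.mem_map]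
        refine ⟨_, hmem, ?_⟩
        have e1 : (16 * i + lab φ c f i) / 16 = i := by omega
        have e2 : (16 * i + lab φ c f i) % 16 = lab φ c f i := by omega
        rw [e1, e2, ← lab_spec hlt]
      rw [hU, hC]
      rfl
    · have hU : U.testBit (16 * i + lab φ c f i) = false :=
        bool_of_iff (hE.used i hi _ (by omega)) (by omega)
      have hF : Fm.testBit (16 * i + lab φ c f i) = true :=
        (hE.fresh i hi _ (by omega)).2 heq
      rw [hU, hF, Bool.and_false]
      rfl
  · intro i _ h0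
    simp at h0

/-! ### the machine -/

theorem brec_ne {b : Bool} {x : ℕ} (h : (Bool.rec 0 x b : ℕ) ≠ 0) : b = true ∧ x ≠ 0 := by
  cases b
  · exact absurd rfl h
  · exact ⟨rfl, h⟩

theorem step_zero {P : Par} {db : ℕ → ℕ} {cur : ℕ} {ih : ℕ → ℕ → ℕ → ℕ → ℕ → ℕ → ℕ → ℕ}
    (hz : ∀ K k U Fm A Sg, ih K k U Fm A Sg 0 = 0) (K k U Fm A Sg : ℕ) :
    step P db cur ih K k U Fm A Sg 0 = 0 := by
  show (Bool.rec 0 (opts (ih K k U Fm) Sg 16 _ A 0) (splitOK P K k 0 0) : ℕ) = 0
  cases splitOK P K k 0 0
  · rfl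
  · exact opts_zero (hz K k U Fm) Sg 16 _ A

theorem go_zero (P : Par) (db : ℕ → ℕ) (cur : ℕ) :
    ∀ fuel K k U Fm A Sg, go P db cur fuel K k U Fm A Sg 0 = 0 := by
  intro fuel
  induction fuel with
  | zero => intro K k U Fm A Sg; rfl
  | succ n ih => exact step_zero (P := P) (db := db) (cur := cur) ih

theorem step_sound {P : Par} (hP : P.WF) {db : ℕ → ℕ} {cur : ℕ}
    (hdb : ∀ j, j < cur → Good.{u} P (db j)) {ih : ℕ → ℕ → ℕ → ℕ → ℕ → ℕ → ℕ → ℕ}
    (hz : ∀ K k U Fm A Sg, ih K k U Fm A Sg 0 = 0)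
    (hih : ∀ K k U Fm A Sg s, ih K k U Fm A Sg s ≠ 0 → Claim.{u} P K k U Fm A Sg)
    {K k U Fm A Sg s : ℕ} (h : step P db cur ih K k U Fm A Sg s ≠ 0) :
    Claim.{u} P K k U Fm A Sg := by
  intro V E hB φ c hE f hf hfit hsing
  have hch : ∀ A Sg s, ih K k U Fm A Sg s ≠ 0 → Fits P φ c A f → Sing P A Sg → False :=
    fun A Sg s h1 h2 h3 => hih K k U Fm A Sg s h1 V E hB φ c hE f hf h2 h3
  have hsub : ∀ Q q, (Nat.land Q A).testBit q = true → A.testBit q = true := by
    intro Q q h1
    rw [tb_land, Bool.and_eq_true] at h1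
    exact h1.2
  unfold step at h
  cases h1 : Nat.beq (Nat.land (Nat.shiftRight s 1) 1) 1 with
  | false =>
    rw [h1] at h
    cases h2 : Nat.beq (Nat.land s 1) 1 with
    | false =>
      rw [h2] at h
      obtain ⟨hok, h3⟩ := brec_ne h
      exact opts_sound hP hE.c14 (hz K k U Fm) hch Sg 16 _ A _ h3 hfit hsing (hsub _)
        (split_ex hP hB hE hf hfit hok)
    | true =>
      rw [h2] at h
      obtain ⟨hok, h3⟩ := brec_ne h
      exact opts_sound hP hE.c14 (hz K k U Fm) hch Sg 16 _ A _ h3 hfit hsing (hsub _)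
        (part_ex hE hfit (ble_lt hok))
  | true =>
    rw [h1] at h
    obtain ⟨hok, h3⟩ := brec_ne h
    obtain ⟨hsg, hov⟩ := band hok
    rw [beq_eq hsg] at hsing
    obtain ⟨φ1, c1, hE1⟩ := commit_emb hP hE hf hfit hsing (beq_eq hov)
    unfold commit at h3
    cases h2 : Nat.beq (Nat.land s 1) 1 with
    | false =>
      rw [h2] at h3
      exact avoid_sound hih h3 V E hB φ1 c1 hE1
    | true =>
      rw [h2] at h3
      obtain ⟨hok2, _⟩ := brec_ne h3
      obtain ⟨hlt, href⟩ := band hok2
      exact refOK_sound hP href (hdb _ (ble_lt hlt)) V E hB φ1 c1 hE1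

theorem go_sound {P : Par} (hP : P.WF) {db : ℕ → ℕ} {cur : ℕ}
    (hdb : ∀ j, j < cur → Good.{u} P (db j)) :
    ∀ fuel K k U Fm A Sg s, go P db cur fuel K k U Fm A Sg s ≠ 0 →
      Claim.{u} P K k U Fm A Sg := by
  intro fuel
  induction fuel with
  | zero =>
    intro K k U Fm A Sg s h
    exact absurd rfl h
  | succ n ih =>
    intro K k U Fm A Sg s h
    exact step_sound hP hdb (go_zero P db cur n) ih h

theorem runL_zero (P : Par) (db : ℕ → ℕ) (fuel i1 : ℕ) :
    ∀ n i, runL P db fuel i1 n i 0 = 0 := by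
  intro n
  induction n with
  | zero =>
    intro i
    show (Bool.rec 0 0 (Nat.beq i i1) : ℕ) = 0
    cases Nat.beq i i1 <;> rfl
  | succ n ih =>
    intro i
    show (Bool.rec (runL P db fuel i1 n (Nat.succ i) (avoid P (go P db i fuel) _ _ _ _ 0)) 0
      (Nat.beq i i1) : ℕ) = 0
    cases Nat.beq i i1
    · show runL P db fuel i1 n (Nat.succ i) (avoid P (go P db i fuel) _ _ _ _ 0) = 0
      have e : ∀ K k U Fm, avoid P (go P db i fuel) K k U Fm 0 = 0 := by
        intro K k U Fm
        unfold avoid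
        have e0 : Nat.shiftRight 0 (Nat.mul 7 P.c) = 0 := Nat.zero_shiftRight _
        rw [e0]
        exact go_zero P db i fuel _ _ _ _ _ _
      rw [e]
      exact ih _
    · rfl

theorem runL_sound {P : Par} (hP : P.WF) {db : ℕ → ℕ} {fuel i1 : ℕ} :
    ∀ n i s, runL P db fuel i1 n i s ≠ 0 → (∀ j, j < i → Good.{u} P (db j)) →
      ∀ j, j < i1 → Good.{u} P (db j) := by
  intro n
  induction n with
  | zero =>
    intro i s h h0
    have h' : (Bool.rec 0 s (Nat.beq i i1) : ℕ) ≠ 0 := h
    rw [← beq_eq (brec_ne h').1]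
    exact h0
  | succ n ih =>
    intro i s h h0
    have h' : (Bool.rec (runL P db fuel i1 n (Nat.succ i)
      (avoid P (go P db i fuel) (entE (db i)) (entK (db i)) (mkU (entN (db i)) P.r)
            (mkF (entN (db i)) P.r) s)) s (Nat.beq i i1) : ℕ) ≠ 0 := h
    cases hq : Nat.beq i i1 with
    | true =>
      rw [← beq_eq hq]
      exact h0
    | false =>
      rw [hq] at h'
      have h2 : runL P db fuel i1 n (Nat.succ i)
        (avoid P (go P db i fuel) (entE (db i)) (entK (db i)) (mkU (entN (db i)) P.r)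
            (mkF (entN (db i)) P.r) s) ≠ 0 := h'
      have h3 : avoid P (go P db i fuel) (entE (db i)) (entK (db i)) (mkU (entN (db i)) P.r)
            (mkF (entN (db i)) P.r) s ≠ 0 := by
        intro h4
        rw [h4] at h2
        exact h2 (runL_zero P db fuel i1 n _)
      refine ih _ _ h2 ?_
      intro j hj
      rcases Nat.lt_succ_iff_lt_or_eq.1 hj with hj | rfl
      · exact h0 j hj
      · exact avoid_sound (go_sound hP h0 fuel) h3

theorem checkRange_sound {P : Par} (hP : P.WF) {db : ℕ → ℕ} {fuel i0 i1 s : ℕ}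
    (h : checkRange P db fuel i0 i1 s = true) (h0 : ∀ j, j < i0 → Good.{u} P (db j)) :
    ∀ j, j < i1 → Good.{u} P (db j) := by
  have h1 := beq_eq h
  exact runL_sound hP _ i0 s (by rw [h1]; exact one_ne_zero) h0

/-! ### the root -/

theorem mkU_zero (r : ℕ) : mkU 0 r = 0 := by
  induction r with
  | zero => rfl
  | succ n ih =>
    show Nat.lor (mkU 0 n) (Nat.shiftLeft (Nat.sub (Nat.shiftLeft 1 (cnt 0 n)) 1) (Nat.mul 16 n)) = 0
    have e : cnt 0 n = 0 := by
      show Nat.land (Nat.shiftRight 0 (Nat.mul 4 n)) 15 = 0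
      have e0 : Nat.shiftRight 0 (Nat.mul 4 n) = 0 := Nat.zero_shiftRight _
      rw [e0]
      rfl
    rw [ih, e]
    show Nat.lor 0 (Nat.shiftLeft 0 (Nat.mul 16 n)) = 0
    have e1 : Nat.shiftLeft 0 (Nat.mul 16 n) = 0 := Nat.zero_shiftLeft _
    rw [e1]
    rfl

theorem mkF_zero_tb (r q : ℕ) : (mkF 0 r).testBit q = true ↔ ∃ i, i < r ∧ q = 16 * i := by
  induction r with
  | zero =>
    have e : mkF 0 0 = 0 := rfl
    rw [e]
    simp
  | succ n ih =>
    have e : cnt 0 n = 0 := by
      show Nat.land (Nat.shiftRight 0 (Nat.mul 4 n)) 15 = 0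
      have e0 : Nat.shiftRight 0 (Nat.mul 4 n) = 0 := Nat.zero_shiftRight _
      rw [e0]
      rfl
    have e2 : mkF 0 (n + 1) =
      Nat.lor (mkF 0 n) (Nat.shiftLeft 1 (Nat.add (Nat.mul 16 n) (cnt 0 n))) := rfl
    rw [e2, e, tb_lor, Bool.or_eq_true, ih, tb_one, decide_eq_true_eq]
    constructor
    · rintro (⟨i, hi, h⟩ | h)
      · exact ⟨i, by omega, h⟩
      · exact ⟨n, by omega, h⟩
    · rintro ⟨i, hi, h⟩
      rcases Nat.lt_succ_iff_lt_or_eq.1 hi with h1 | rfl
      · exact Or.inl ⟨i, h1, h⟩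
      · exact Or.inr h

/-- if the empty state is refuted there is no bad hypergraph -/
theorem not_bad_of_good_empty {P : Par} (e : ℕ) (hK : Nat.beq (entK e) 0 = true)
    (hN : Nat.beq (entN e) 0 = true) (hg : Good.{u} P e) (V : Type u) (E : (ℕ → V) → Prop) :
    ¬ Bad P E := by
  intro hB
  obtain ⟨f, _, _⟩ := hB.nocover [] (Nat.zero_le _)
  unfold Good at hg
  rw [beq_eq hK, beq_eq hN] at hg
  refine hg V E hB (fun _ _ => f 0) (fun _ => 0) ⟨fun _ _ => Nat.zero_le _, ?_, ?_, ?_, ?_⟩
  · intro i _ x _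
    rw [mkU_zero]
    simp
  · intro i hi x hx
    rw [mkF_zero_tb]
    constructor
    · rintro ⟨i', _, h⟩
      omega
    · rintro rfl
      exact ⟨i, hi, rfl⟩
  · intro i _ x y hx
    exact absurd hx (Nat.not_lt_zero x)
  · intro j hj
    exact absurd hj (Nat.not_lt_zero j)

end Vale.Agent.P045
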